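import Mathlib.Analysis.CStarAlgebra.Matrix
import Mathlib.Analysis.Matrix.PosDef
import Mathlib.Data.Nat.Dist

/-! Local Hamiltonians on the square lattice and reduced density matrices. -/

namespace Vale.Agent.P356

open Matrix
open scoped ComplexOrder Matrix.Norms.L2Operator

/-- Sites of the `L × L` square. -/
abbrev Site (L : ℕ) : Type := Fin L × Fin L

/-- Basis of the tensor product of the spaces `ℂ^q`. -/
abbrev Cfg (L q : ℕ) : Type := Site L → Fin q

variable {L q : ℕ}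

/-- The `ℓ¹` distance. -/
def dist1 (x y : Site L) : ℕ := Nat.dist x.1 y.1 + Nat.dist x.2 y.2

/-- `h` acts on the tensor factors in `X` and as the identity elsewhere. -/
def ActsOn (X : Finset (Site L)) (h : Matrix (Cfg L q) (Cfg L q) ℂ) : Prop :=
  ∃ g : Matrix (X → Fin q) (X → Fin q) ℂ, ∀ s t,
    h s t = if ∀ x ∉ X, s x = t x then g (fun x => s x) (fun x => t x) else 0

/-- Admissible Hamiltonians: one Hermitian term of `ℓ²` operator norm at most `J` for each nonempty set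
of diameter at most `R`. -/
def Admissible (R : ℕ) (J : ℝ) (H : Matrix (Cfg L q) (Cfg L q) ℂ) : Prop :=
  ∃ h : Finset (Site L) → Matrix (Cfg L q) (Cfg L q) ℂ,
    (∀ X, (h X).IsHermitian ∧ ActsOn X (h X) ∧ ‖h X‖ ≤ J) ∧
    H = ∑ X ∈ Finset.univ.filter (fun X : Finset (Site L) =>
      X.Nonempty ∧ ∀ x ∈ X, ∀ y ∈ X, dist1 x y ≤ R), h X

/-- `Ω` is a unit eigenvector of `H` with eigenvalue `E` and `H - E ≥ Δ (1 - |Ω⟩⟨Ω|)`. -/
def Gapped (H : Matrix (Cfg L q) (Cfg L q) ℂ) (Ω : Cfg L q → ℂ) (Δ : ℝ) : Prop :=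
  star Ω ⬝ᵥ Ω = 1 ∧ ∃ E : ℝ, H *ᵥ Ω = (E : ℂ) • Ω ∧
    (H - (E : ℂ) • 1 - (Δ : ℂ) • (1 - vecMulVec Ω (star Ω))).PosSemidef

/-- The coefficient matrix of `Ω` for the splitting into `A` and its complement. -/
def coef (A : Finset (Site L)) (Ω : Cfg L q → ℂ) :
    Matrix ({x // x ∈ A} → Fin q) ({x // x ∉ A} → Fin q) ℂ :=
  of fun a b => Ω fun x => if h : x ∈ A then a ⟨x, h⟩ else b ⟨x, h⟩

/-- The eigenvalues of the reduced density matrix, the partial trace `coef * coefᴴ`. -/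
noncomputable def spec (A : Finset (Site L)) (Ω : Cfg L q → ℂ) : ({x // x ∈ A} → Fin q) → ℝ :=
  (isHermitian_mul_conjTranspose_self (coef A Ω)).eigenvalues

/-- The entanglement entropy. -/
noncomputable def ent (A : Finset (Site L)) (Ω : Cfg L q → ℂ) : ℝ :=
  -∑ i, spec A Ω i * Real.log (spec A Ω i)

/-- The size of the edge boundary. -/
def bdry (A : Finset (Site L)) : ℕ :=
  (Finset.univ.filter fun p : Site L × Site L => p.1 ∈ A ∧ p.2 ∉ A ∧ dist1 p.1 p.2 = 1).card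

/-- Concentration of `-log l i` around `S` at scale `√b / c` under the weights `l`. -/
def Conc {ι : Type} [Fintype ι] (l : ι → ℝ) (S c b : ℝ) : Prop :=
  (∀ θ : ℝ, |θ| ≤ c / √b → ∑ i, l i * Real.exp (θ * (-Real.log (l i) - S)) ≤ 3) ∧
  (∀ t : ℝ, ∑ i with t ≤ |-Real.log (l i) - S|, l i ≤ 6 * Real.exp (-(c / √b * t))) ∧
  c ^ 2 * ∑ i, l i * (-Real.log (l i) - S) ^ 2 ≤ 12 * b ∧
  ∀ T : Finset ι, 0 < ∑ i ∈ T, l i →
    c * (S - Real.log T.card) ≤ 2 * √b * (1 - Real.log (∑ i ∈ T, l i))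

end Vale.Agent.P356
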