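import Vale.Agent.P356.Defs

/-! Stoquastic Hamiltonians and the logarithmic Sobolev inequality. -/

namespace Vale.Agent.P356

open Matrix
open scoped ComplexOrder Matrix.Norms.L2Operator

variable {L q : ℕ}

/-- Admissible Hamiltonians all of whose terms have nonpositive off-diagonal entries. -/
def Stoq (R : ℕ) (J : ℝ) (H : Matrix (Cfg L q) (Cfg L q) ℂ) : Prop :=
  ∃ h : Finset (Site L) → Matrix (Cfg L q) (Cfg L q) ℂ,
    (∀ X, (h X).IsHermitian ∧ ActsOn X (h X) ∧ ‖h X‖ ≤ J) ∧ (∀ X s t, s ≠ t → h X s t ≤ 0) ∧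
    H = ∑ X ∈ Finset.univ.filter (fun X : Finset (Site L) =>
      X.Nonempty ∧ ∀ x ∈ X, ∀ y ∈ X, dist1 x y ≤ R), h X

/-- The energy of a real vector. -/
def en {γ : Type} [Fintype γ] (H : Matrix γ γ ℂ) (φ : γ → ℝ) : ℝ :=
  ∑ s, ∑ t, φ s * (H s t).re * φ t

/-- Logarithmic Sobolev inequality with constant `a` for the ground state `ψ`. -/
def LSI {γ : Type} [Fintype γ] (H : Matrix γ γ ℂ) (ψ : γ → ℝ) (a : ℝ) : Prop :=
  ∀ φ : γ → ℝ, ∑ s, φ s ^ 2 = 1 →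
    a * ∑ s, φ s ^ 2 * Real.log (φ s ^ 2 / ψ s ^ 2) ≤ en H φ - en H ψ

end Vale.Agent.P356
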