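import Vale.Agent.P356.Sup

/-! Imaginary time steps under the logarithmic Sobolev inequality. -/

set_option linter.unusedSectionVars false

namespace Vale.Agent.P356

open Matrix Finset Real
open scoped Matrix.Norms.L2Operator ComplexOrder

variable {α β γ : Type} [Fintype α] [Fintype β] [Fintype γ] [DecidableEq α] [DecidableEq β]
  [DecidableEq γ] {e : γ ≃ α × β}

lemma dot_le (x y : α → ℂ) : ‖x ⬝ᵥ y‖ ≤ nrm x * nrm y := by
  have := norm_inner_le_norm (𝕜 := ℂ) (WithLp.toLp 2 (star x) : EuclideanSpace ℂ α)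
    (WithLp.toLp 2 y)
  rw [EuclideanSpace.inner_toLp_toLp, star_star, dotProduct_comm] at this
  exact this.trans (le_of_eq (congrArg (· * nrm y) (nrm_star x)))

lemma nrm_real (φ : α → ℝ) : nrm (fun s => (φ s : ℂ)) ^ 2 = ∑ s, φ s ^ 2 := by
  simp [nrm_sq]

/-- Nuclear norm bound in dual form. -/
def Nuc (e : γ ≃ α × β) (χ : γ → ℂ) (N : ℝ) : Prop :=
  ∀ M : Matrix α β ℂ, ‖χ ⬝ᵥ fun s => M (e s).1 (e s).2‖ ≤ N * ‖M‖

lemma Nuc.step {χ : γ → ℂ} {N κ : ℝ} {K : Matrix γ γ ℂ} (h : Nuc e χ N) (hN : 0 ≤ N)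
    (hK : SB e κ K) : Nuc e (K *ᵥ χ) (N * κ) := fun M => by
  have := (h (sup e K M)).trans (mul_le_mul_of_nonneg_left (hK M) hN)
  simp only [sup, of_apply, Prod.mk.eta, Equiv.symm_apply_apply] at this
  rwa [dotProduct_comm, dotProduct_mulVec, dotProduct_comm, mul_assoc]

lemma nuc_tens {u : α → ℝ} {v : β → ℝ} (hu : ∑ s, u s ^ 2 = 1) (hv : ∑ s, v s ^ 2 = 1) :
    Nuc e (fun s => ((u (e s).1 * v (e s).2 : ℝ) : ℂ)) 1 := fun M => by
  have h : ((fun s => ((u (e s).1 * v (e s).2 : ℝ) : ℂ)) ⬝ᵥ fun s => M (e s).1 (e s).2) =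
      (fun a => (u a : ℂ)) ⬝ᵥ M *ᵥ fun b => (v b : ℂ) := by
    simp only [dotProduct, mulVec, mul_sum]
    rw [← e.symm.sum_comp, Fintype.sum_prod_type]
    refine sum_congr rfl fun a _ => sum_congr rfl fun b _ => ?_
    rw [e.apply_symm_apply]
    push_cast
    ring
  have h1 : nrm (fun a => (u a : ℂ)) = 1 := by
    rw [← sq_eq_sq₀ (nrm_nonneg _) zero_le_one, nrm_real, hu, one_pow]
  have h2 : nrm (fun a => (v a : ℂ)) = 1 := by
    rw [← sq_eq_sq₀ (nrm_nonneg _) zero_le_one, nrm_real, hv, one_pow]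
  rw [h]
  refine (dot_le _ _).trans ?_
  simpa only [h1, h2, one_mul, mul_one] using nrm_mulVec M fun b => (v b : ℂ)

lemma iter {Y : Matrix γ γ ℂ} (hY : Y.IsHermitian) (ho : ∀ s t, s ≠ t → Y s t ≤ 0) {ψ : γ → ℝ}
    (hψ : ∀ s, 0 < ψ s) (h0 : Y *ᵥ (fun s => (ψ s : ℂ)) = 0) {a ε κ o W : ℝ}
    (hL : ∀ φ : γ → ℝ, ∑ s, φ s ^ 2 = 1 →
      a * ∑ s, φ s ^ 2 * log (φ s ^ 2 / ψ s ^ 2) ≤ en Y φ) (ha : 0 < a) (hε : 0 ≤ ε)
    (h1 : ε * ‖Y‖ ≤ 1) (h2 : 2 * a * ε ≤ 1) (hκ : 0 ≤ κ) (hK : SB e κ (1 - (ε : ℂ) • Y))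
    (o0 : 0 < o) (hs : ∃ φ : γ → ℝ, (∀ s, 0 ≤ φ s) ∧ ∑ s, φ s * ψ s = o ∧
      Nuc e (fun s => φ s) 1 ∧ log (∑ s, φ s ^ 2) - 2 * log o ≤ W) (n : ℕ) :
    ∃ φ : γ → ℝ, (∀ s, 0 ≤ φ s) ∧ ∑ s, φ s * ψ s = o ∧ Nuc e (fun s => φ s) (κ ^ n) ∧
      log (∑ s, φ s ^ 2) - 2 * log o ≤ (1 - 2 * a * ε) ^ n * W + n * (ε ^ 2 * ‖Y‖ ^ 2) := by
  have re : ∀ s t, ((Y s t).re : ℂ) = Y s t := fun s t => by
    by_cases h : s = t
    · subst h
      exact hY.coe_re_apply_self s
    · exact Complex.ext rfl (by simpa using (Complex.le_def.mp (ho s t h)).2.symm)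
  have sy : ∀ s t, (Y s t).re = (Y t s).re := fun s t => by
    rw [← hY.apply s t]
    rfl
  have pos : ∀ φ : γ → ℝ, ∑ s, φ s * ψ s = o → 0 < ∑ s, φ s ^ 2 := fun φ h => by
    have := (o0.trans_le h.ge).trans_le (sum_mul_le_sqrt_mul_sqrt _ _ _)
    exact sqrt_pos.mp (lt_of_mul_lt_mul_right (by rwa [zero_mul]) (sqrt_nonneg _))
  induction n with
  | zero => simpa using hs
  | succ n ih =>
    obtain ⟨φ, p0, p1, p2, p3⟩ := ih
    have c : (fun s => ((∑ t, (Y s t).re * φ t : ℝ) : ℂ)) = Y *ᵥ fun s => (φ s : ℂ) := by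
      ext s
      simp only [mulVec, dotProduct, Complex.ofReal_sum, Complex.ofReal_mul, re]
    have q1 : ∑ s, (φ s - ε * ∑ t, (Y s t).re * φ t) * ψ s = o := by
      have : ∀ t, ∑ s, (Y s t).re * ψ s = 0 := fun t => by
        have := congrArg Complex.re (congrFun h0 t)
        simpa [mulVec, dotProduct, sy t] using this
      have z : ∑ s, (∑ t, (Y s t).re * φ t) * ψ s = 0 := by
        simp only [sum_mul]
        rw [sum_comm]
        exact sum_eq_zero fun t _ => by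
          simp only [mul_right_comm _ (φ t), ← sum_mul, this, zero_mul]
      simp only [sub_mul, sum_sub_distrib, mul_assoc ε, ← mul_sum, z, p1, mul_zero, sub_zero]
    refine ⟨fun s => φ s - ε * ∑ t, (Y s t).re * φ t, fun s => ?_, q1, ?_, ?_⟩
    · show 0 ≤ φ s - ε * ∑ t, (Y s t).re * φ t
      rw [← add_sum_erase _ _ (mem_univ s)]
      have b1 : ∑ t ∈ univ.erase s, (Y s t).re * φ t ≤ 0 := sum_nonpos fun t ht =>
        mul_nonpos_of_nonpos_of_nonneg (Complex.le_def.mp (ho s t (ne_of_mem_erase ht).symm)).1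
          (p0 t)
      have b2 : ε * (Y s s).re ≤ 1 := (mul_le_mul_of_nonneg_left ((Complex.re_le_norm _).trans
        (entry_le Y s s)) hε).trans h1
      nlinarith [mul_le_mul_of_nonneg_right b2 (p0 s), mul_nonneg hε (neg_nonneg.mpr b1)]
    · convert p2.step (pow_nonneg hκ n) hK using 1
      · rw [sub_mulVec, one_mulVec, smul_mulVec, ← c]
        ext s
        simp
      · exact pow_succ κ n
    · have r0 := pos φ p1
      have r1 := pos _ q1
      set r := ∑ s, φ s ^ 2 with hr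
      have sr := sqrt_pos.mpr r0
      have u1 : ∑ s, (φ s / √r) ^ 2 = 1 := by
        simp only [div_pow, ← sum_div, sq_sqrt r0.le, ← hr, div_self r0.ne']
      have l1 := hL _ u1
      have l2 := log_le_log (exp_pos _) (jensen u1 (fun s => div_nonneg (p0 s) sr.le) hψ)
      have l3 : en Y (fun s => φ s / √r) = en Y φ / r := by
        simp only [en, sum_div]
        refine sum_congr rfl fun s _ => sum_congr rfl fun t _ => ?_
        field_simp
        rw [sq_sqrt r0.le]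
        ring
      simp only [div_mul_eq_mul_div, ← sum_div, p1] at l2
      rw [log_exp, log_div o0.ne' sr.ne', log_sqrt r0.le] at l2
      rw [l3] at l1
      have l4 : ∑ s, (∑ t, (Y s t).re * φ t) ^ 2 ≤ ‖Y‖ ^ 2 * r := by
        rw [← nrm_real, c, hr, ← nrm_real, ← mul_pow]
        exact pow_le_pow_left₀ (nrm_nonneg _) (nrm_mulVec _ _) 2
      have l5 : ∑ s, (φ s - ε * ∑ t, (Y s t).re * φ t) ^ 2 =
          r - 2 * ε * en Y φ + ε ^ 2 * ∑ s, (∑ t, (Y s t).re * φ t) ^ 2 := by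
        simp only [en, hr, mul_sum _ _ (2 * ε), mul_sum _ _ (ε ^ 2), ← sum_sub_distrib,
          ← sum_add_distrib, mul_assoc (φ _), ← mul_sum _ _ (φ _)]
        exact sum_congr rfl fun s _ => by ring
      have l6 := log_le_sub_one_of_pos (div_pos r1 r0)
      rw [log_div r1.ne' r0.ne', l5] at l6
      rw [l5, pow_succ (1 - 2 * a * ε)]
      have l7 : (r - 2 * ε * en Y φ + ε ^ 2 * ∑ s, (∑ t, (Y s t).re * φ t) ^ 2) / r - 1 ≤
          -(2 * ε * (en Y φ / r)) + ε ^ 2 * ‖Y‖ ^ 2 := by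
        rw [sub_le_iff_le_add, div_le_iff₀ r0]
        have : en Y φ / r * r = en Y φ := div_mul_cancel₀ _ r0.ne'
        nlinarith [mul_le_mul_of_nonneg_left l4 (sq_nonneg ε)]
      have l8 : a * (log r - 2 * log o) ≤ en Y φ / r :=
        le_trans (mul_le_mul_of_nonneg_left (by linarith) ha.le) l1
      push_cast
      nlinarith [mul_le_mul_of_nonneg_left l8 hε, mul_le_mul_of_nonneg_left p3 (sub_nonneg.mpr h2),
        mul_nonneg (mul_nonneg (mul_nonneg ha.le hε) (Nat.cast_nonneg (α := ℝ) n))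
          (mul_nonneg (sq_nonneg ε) (sq_nonneg ‖Y‖))]

lemma split {C : Matrix α β ℂ} {U : Matrix α α ℂ} (hU : Uᴴ * U = 1) (hU' : U * Uᴴ = 1)
    {l : α → ℝ} (hl : ∀ i, 0 ≤ l i) (hm : (Uᴴ * C) * (Uᴴ * C)ᴴ = diagonal fun i => (l i : ℂ))
    {χ : γ → ℂ} {N η : ℝ} (hN : 0 ≤ N) (hχ : Nuc e χ N) (hη : 0 ≤ η) :
    ‖χ ⬝ᵥ fun s => C (e s).1 (e s).2‖ ≤ nrm χ * √(∑ i with η ^ 2 ≤ l i, l i) + N * η := by
  have g : ∀ d : α → ℝ, (U * diagonal (fun i => (d i : ℂ)) * (Uᴴ * C)) *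
      (U * diagonal (fun i => (d i : ℂ)) * (Uᴴ * C))ᴴ =
      U * diagonal (fun i => ((d i * l i * d i : ℝ) : ℂ)) * Uᴴ := fun d => by
    rw [conjTranspose_mul (U * _), Matrix.mul_assoc (U * _), ← Matrix.mul_assoc (Uᴴ * C), hm,
      conjTranspose_mul, diagonal_conjTranspose]
    simp only [Matrix.mul_assoc]
    simp only [← Matrix.mul_assoc (diagonal _), diagonal_mul_diagonal]
    simp [mul_assoc]
  set M1 := U * diagonal (fun i => ((if η ^ 2 ≤ l i then 1 else 0 : ℝ) : ℂ)) * (Uᴴ * C) with h1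
  set M2 := U * diagonal (fun i => ((if η ^ 2 ≤ l i then 0 else 1 : ℝ) : ℂ)) * (Uᴴ * C) with h2
  have hC : (fun s => C (e s).1 (e s).2) =
      (fun s => M1 (e s).1 (e s).2) + fun s => M2 (e s).1 (e s).2 := by
    have : M1 + M2 = C := by
      rw [h1, h2, ← Matrix.add_mul, ← Matrix.mul_add, diagonal_add]
      have : (diagonal fun i => ((if η ^ 2 ≤ l i then 1 else 0 : ℝ) : ℂ) +
          ((if η ^ 2 ≤ l i then 0 else 1 : ℝ) : ℂ)) = 1 := by
        rw [← diagonal_one]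
        congr 1
        ext i
        split_ifs <;> simp
      rw [this, Matrix.mul_one, ← Matrix.mul_assoc, hU', Matrix.one_mul]
    ext s
    rw [← this]
    rfl
  rw [hC, dotProduct_add]
  refine (norm_add_le _ _).trans (add_le_add ((dot_le _ _).trans (mul_le_mul_of_nonneg_left
    (le_sqrt_of_sq_le (le_of_eq ?_)) (nrm_nonneg _))) ((hχ M2).trans
      (mul_le_mul_of_nonneg_left ?_ hN)))
  · have := congrArg (fun X => (trace X).re) (g fun i => if η ^ 2 ≤ l i then 1 else 0)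
    simp only [← h1] at this
    rw [trace_mul_cycle U, hU, Matrix.one_mul, trace_diagonal] at this
    rw [nrm_sq, ← e.symm.sum_comp, Fintype.sum_prod_type, sum_filter]
    simp only [trace, diag_apply, mul_apply (M := M1), conjTranspose_apply, Complex.re_sum,
      Complex.ofReal_re, Complex.star_def, Complex.mul_conj, Complex.normSq_eq_norm_sq] at this
    simp only [Equiv.apply_symm_apply]
    rw [this]
    exact sum_congr rfl fun i _ => by split_ifs <;> simp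
  · have a := l2_opNorm_conjTranspose_mul_self M2ᴴ
    rw [conjTranspose_conjTranspose, l2_opNorm_conjTranspose, h2, g, ← h2] at a
    have u : ‖U‖ ≤ 1 := norm_le_of_diag (d := fun _ => 1) (by simp [hU]) (by simp)
    have b := (l2_opNorm_mul (U * diagonal fun i => (((if η ^ 2 ≤ l i then 0 else 1) * l i *
      (if η ^ 2 ≤ l i then 0 else 1) : ℝ) : ℂ)) Uᴴ).trans ((mul_le_of_le_one_right (norm_nonneg _)
      (by rwa [l2_opNorm_conjTranspose])).trans ((l2_opNorm_mul _ _).trans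
        (mul_le_of_le_one_left (norm_nonneg _) u)))
    rw [a, l2_opNorm_diagonal] at b
    refine le_of_sq_le_sq ((sq _).le.trans (b.trans ((pi_norm_le_iff_of_nonneg (sq_nonneg η)).mpr
      fun i => ?_))) hη
    rw [Complex.norm_real, Real.norm_eq_abs]
    split_ifs with h
    · simpa using sq_nonneg η
    · simpa [abs_of_nonneg (hl i)] using (not_le.mp h).le

end Vale.Agent.P356
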