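import Mathlib.Analysis.SpecialFunctions.Log.NegMulLog
import Mathlib.Analysis.SpecialFunctions.Pow.Real
import Mathlib.Analysis.SpecificLimits.Basic
import Mathlib.Analysis.Complex.ExponentialBounds

/-! A Poincare inequality on a finite probability vector gives exponential concentration. -/

namespace Vale.Agent.P356

open Finset Real

lemma exp_le_quad (x : ℝ) : exp x ≤ 1 + x + x ^ 2 * exp |x| := by
  have h0 : 1 ≤ exp |x| := one_le_exp (abs_nonneg x)
  rcases le_or_gt |x| 1 with h | h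
  · have := (abs_le.mp (abs_exp_sub_one_sub_id_le h)).2
    nlinarith [sq_nonneg x]
  · have h2 : |x| ≤ x ^ 2 := by rw [← sq_abs]; nlinarith
    rcases le_total 0 x with hx | hx
    · rw [abs_of_nonneg hx] at *
      nlinarith [exp_pos x]
    · have : exp x ≤ 1 := exp_le_one_iff.mpr hx
      rw [abs_of_nonpos hx] at *
      nlinarith

lemma ker_aux {θ u : ℝ} (hθ : |θ| ≤ 1 / 4) (hu : 0 ≤ u) :
    (1 - exp (θ * u / 2)) ^ 2 * exp (-u / 2) ≤ 8 * θ ^ 2 := by
  set x := θ * u / 2 with hx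
  have h1 : |1 - exp x| ≤ |x| * exp |x| := by
    have a := add_one_le_exp x
    have b := add_one_le_exp (-x)
    have c : exp (-x) * exp x = 1 := by rw [← exp_add]; simp
    have d : 1 ≤ exp |x| := one_le_exp (abs_nonneg x)
    rcases le_total 0 x with h | h
    · rw [abs_of_nonneg h, abs_le]
      constructor <;> nlinarith [exp_pos x]
    · have : exp x ≤ 1 := exp_le_one_iff.mpr h
      rw [abs_of_nonpos h] at *
      rw [abs_le]
      constructor <;> nlinarith
  have h2 : (1 - exp x) ^ 2 ≤ x ^ 2 * exp (u / 4) := by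
    have : |x| ≤ u / 8 := by
      rw [hx, abs_div, abs_mul, abs_of_nonneg hu, abs_two]
      nlinarith [abs_nonneg θ]
    calc (1 - exp x) ^ 2 = |1 - exp x| ^ 2 := (sq_abs _).symm
      _ ≤ (|x| * exp |x|) ^ 2 := by gcongr
      _ = x ^ 2 * exp (2 * |x|) := by rw [mul_pow, sq_abs, ← exp_nat_mul]; norm_num
      _ ≤ _ := by gcongr; linarith
  have h3 : u ^ 2 / 32 ≤ exp (u / 4) := by
    have := quadratic_le_exp_of_nonneg (x := u / 4) (by positivity)
    nlinarith
  have h4 : exp (u / 4) * exp (-u / 2) * exp (u / 4) = 1 := by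
    rw [← exp_add, ← exp_add, ← exp_zero]; congr 1; ring
  have h5 : u ^ 2 * (exp (u / 4) * exp (-u / 2)) ≤ 32 := by
    have : 0 < exp (u / 4) * exp (-u / 2) := by positivity
    nlinarith
  calc _ ≤ x ^ 2 * exp (u / 4) * exp (-u / 2) := by gcongr
    _ = θ ^ 2 / 4 * (u ^ 2 * (exp (u / 4) * exp (-u / 2))) := by rw [hx]; ring
    _ ≤ θ ^ 2 / 4 * 32 := by gcongr
    _ = _ := by ring

lemma ker_le {θ S a b : ℝ} (hθ : |θ| ≤ 1 / 4) (hb : 0 ≤ b) (hab : b ≤ a) :
    (exp (θ / 2 * (-log a - S)) - exp (θ / 2 * (-log b - S))) ^ 2 * √(a * b) ≤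
      8 * θ ^ 2 * (a * exp (θ * (-log a - S))) := by
  rcases hb.eq_or_lt with rfl | hb
  · simp only [mul_zero, sqrt_zero]; positivity
  have ha := hb.trans_le hab
  have hu : 0 ≤ log a - log b := sub_nonneg.mpr (log_le_log hb hab)
  have h1 : √(a * b) = a * exp (-(log a - log b) / 2) := by
    rw [sqrt_eq_iff_mul_self_eq (by positivity) (by positivity)]
    have : exp (-(log a - log b) / 2) * exp (-(log a - log b) / 2) = b / a := by
      rw [← exp_add, ← exp_log (div_pos hb ha), log_div hb.ne' ha.ne']; congr 1; ring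
    calc _ = a * a * (exp (-(log a - log b) / 2) * exp (-(log a - log b) / 2)) := by
          rw [this]; field_simp
      _ = _ := by ring
  have h2 : exp (θ / 2 * (-log b - S)) =
      exp (θ / 2 * (-log a - S)) * exp (θ * (log a - log b) / 2) := by
    rw [← exp_add]; congr 1; ring
  have h3 : exp (θ * (-log a - S)) = exp (θ / 2 * (-log a - S)) ^ 2 := by
    rw [← exp_nat_mul]; congr 1; push_cast; ring
  rw [h1, h2, h3]
  have := mul_le_mul_of_nonneg_right (ker_aux hθ hu)
    (show 0 ≤ a * exp (θ / 2 * (-log a - S)) ^ 2 by positivity)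
  refine le_trans (le_of_eq ?_) this
  ring

variable {ι : Type} [Fintype ι]

/-- Moment generating function bound. -/
theorem mgf_le {l : ι → ℝ} (hl : ∀ i, 0 ≤ l i) (h1 : ∑ i, l i = 1) {t : ι → ι → ℝ}
    (ht : ∀ i j, 0 ≤ t i j) {N Δ : ℝ} (hr : ∀ i, ∑ j, t i j ≤ N) (hc : ∀ j, ∑ i, t i j ≤ N)
    (hΔ : 0 < Δ) (hP : ∀ f : ι → ℝ, Δ * (∑ i, l i * f i ^ 2 - (∑ i, l i * f i) ^ 2) ≤
      1 / 2 * ∑ i, ∑ j, (f i - f j) ^ 2 * √(l i * l j) * t i j)
    {θ : ℝ} (hθ : |θ| ≤ 1 / 4) (hN : 32 * N * θ ^ 2 ≤ Δ) :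
    ∑ i, l i * exp (θ * (-log (l i) - ∑ j, negMulLog (l j))) ≤ 3 := by
  set S := ∑ j, negMulLog (l j) with hS
  set Z : ℝ → ℝ := fun θ => ∑ i, l i * exp (θ * (-log (l i) - S)) with hZ
  have hne : ∃ i, 0 < l i := by
    by_contra h
    push Not at h
    have := sum_nonpos fun i (_ : i ∈ univ) => h i
    linarith
  obtain ⟨i0, hi0⟩ := hne
  have hN0 : 0 ≤ N := (sum_nonneg fun j _ => ht i0 j).trans (hr i0)
  have hpos : ∀ θ, 0 < Z θ := fun θ =>
    sum_pos' (fun i _ => mul_nonneg (hl i) (exp_pos _).le) ⟨i0, mem_univ _, by positivity⟩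
  set κ := 8 * N / Δ with hκ
  have hκ0 : 0 ≤ κ := by positivity
  have step : ∀ θ, |θ| ≤ 1 / 4 → κ * θ ^ 2 ≤ 1 / 4 →
      log (Z θ) ≤ 2 * log (Z (θ / 2)) + 2 * κ * θ ^ 2 := by
    intro θ hθ hk
    have a := hP fun i => exp (θ / 2 * (-log (l i) - S))
    have e : ∀ i, exp (θ / 2 * (-log (l i) - S)) ^ 2 = exp (θ * (-log (l i) - S)) := fun i => by
      rw [← exp_nat_mul]; congr 1; push_cast; ring
    simp only [e] at a
    set w : ι → ℝ := fun i => 8 * θ ^ 2 * (l i * exp (θ * (-log (l i) - S))) with hw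
    have w0 : ∀ i, 0 ≤ w i := fun i => by have := hl i; positivity
    have b : ∑ i, ∑ j, (exp (θ / 2 * (-log (l i) - S)) - exp (θ / 2 * (-log (l j) - S))) ^ 2 *
        √(l i * l j) * t i j ≤ ∑ i, ∑ j, (w i * t i j + w j * t i j) := by
      refine sum_le_sum fun i _ => sum_le_sum fun j _ => ?_
      rw [← add_mul]
      refine mul_le_mul_of_nonneg_right ?_ (ht i j)
      rcases le_total (l j) (l i) with h | h
      · exact (ker_le hθ (hl j) h).trans (le_add_of_nonneg_right (w0 j))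
      · rw [← neg_sub, neg_sq, mul_comm (l i)]
        exact (ker_le hθ (hl i) h).trans (le_add_of_nonneg_left (w0 i))
    have c : ∑ i, ∑ j, (w i * t i j + w j * t i j) ≤ 2 * (N * ∑ i, w i) := by
      simp only [sum_add_distrib]
      rw [sum_comm (f := fun i j => w j * t i j), mul_sum, two_mul]
      refine add_le_add (sum_le_sum fun i _ => ?_) (sum_le_sum fun i _ => ?_) <;>
        rw [← mul_sum, mul_comm]
      exacts [mul_le_mul_of_nonneg_right (hr i) (w0 i), mul_le_mul_of_nonneg_right (hc i) (w0 i)]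
    have d : ∑ i, w i = 8 * θ ^ 2 * Z θ := by rw [hZ, mul_sum]
    have f : Z θ * (1 - κ * θ ^ 2) ≤ Z (θ / 2) ^ 2 := by
      have : Δ * (Z θ - Z (θ / 2) ^ 2) ≤ Δ * (κ * θ ^ 2 * Z θ) := by
        have : Δ * (κ * θ ^ 2 * Z θ) = N * (8 * θ ^ 2 * Z θ) := by rw [hκ]; field_simp
        rw [this, ← d]
        exact a.trans (by linarith)
      have := le_of_mul_le_mul_left this hΔ
      linarith
    have k0 : 0 ≤ κ * θ ^ 2 := by positivity
    have g := log_le_log (mul_pos (hpos θ) (by linarith)) f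
    rw [log_mul (hpos θ).ne' (by linarith), log_pow] at g
    have h := one_sub_inv_le_log_of_pos (x := 1 - κ * θ ^ 2) (by linarith)
    have : (1 - κ * θ ^ 2)⁻¹ ≤ 1 + 2 * κ * θ ^ 2 := by
      rw [inv_le_iff_one_le_mul₀ (by linarith)]; nlinarith
    push_cast at g
    linarith
  set B := ∑ i, l i * ((-log (l i) - S) ^ 2 * exp |-log (l i) - S|) with hB
  have ind : ∀ k : ℕ, ∀ θ, |θ| ≤ 1 / 4 → κ * θ ^ 2 ≤ 1 / 4 →
      log (Z θ) ≤ 4 * κ * θ ^ 2 + B * θ ^ 2 * (1 / 2) ^ k := by
    intro k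
    induction k with
    | zero =>
      intro θ hθ _
      have a : Z θ ≤ ∑ i, (l i + θ * (negMulLog (l i) - S * l i) +
          θ ^ 2 * (l i * ((-log (l i) - S) ^ 2 * exp |-log (l i) - S|))) := by
        refine sum_le_sum fun i _ => ?_
        have b : exp |θ * (-log (l i) - S)| ≤ exp |-log (l i) - S| := by
          rw [abs_mul]; gcongr; nlinarith [abs_nonneg (-log (l i) - S)]
        have c := mul_le_mul_of_nonneg_left ((exp_le_quad (θ * (-log (l i) - S))).trans
          (add_le_add_right (mul_le_mul_of_nonneg_left b (sq_nonneg _)) _)) (hl i)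
        refine c.trans (le_of_eq ?_)
        rw [negMulLog]; ring
      simp only [sum_add_distrib, ← mul_sum, sum_sub_distrib, h1, ← hS, ← hB] at a
      have := log_le_sub_one_of_pos (hpos θ)
      have : 0 ≤ κ * θ ^ 2 := by positivity
      nlinarith
    | succ k ih =>
      intro θ hθ hk
      have a := ih (θ / 2) (by rw [abs_div, abs_two]; linarith [abs_nonneg θ])
        (by have : 0 ≤ κ * θ ^ 2 := by positivity
            nlinarith)
      have b := step θ hθ hk
      rw [pow_succ (1 / 2 : ℝ)]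
      nlinarith
  have hk : κ * θ ^ 2 ≤ 1 / 4 := by
    rw [hκ, div_mul_eq_mul_div, div_le_iff₀ hΔ]; linarith
  have lim : log (Z θ) ≤ 4 * κ * θ ^ 2 + B * θ ^ 2 * 0 :=
    ge_of_tendsto' (((tendsto_pow_atTop_nhds_zero_of_lt_one (r := (1 / 2 : ℝ)) (by norm_num)
      (by norm_num)).const_mul _).const_add _) fun k => ind k θ hθ hk
  have : Z θ ≤ exp 1 := by
    rw [← log_le_iff_le_exp (hpos θ)]; linarith
  exact this.trans (exp_one_lt_d9.le.trans (by norm_num))

end Vale.Agent.P356
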