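import Mathlib.Analysis.CStarAlgebra.Matrix
import Mathlib.Analysis.Matrix.PosDef
import Vale.Agent.P356.Real

/-! The Poincare inequality on the Schmidt spectrum of a gapped ground state. -/

set_option linter.unusedSectionVars false

namespace Vale.Agent.P356

open Matrix Finset
open scoped Matrix.Norms.L2Operator ComplexOrder

variable {α β γ : Type} [Fintype α] [Fintype β] [Fintype γ] [DecidableEq α] [DecidableEq β]
  [DecidableEq γ]

lemma entry_le (X : Matrix α β ℂ) (x : α) (y : β) : ‖X x y‖ ≤ ‖X‖ := by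
  have h := l2_opNorm_mulVec X (EuclideanSpace.single y (1 : ℂ))
  rw [PiLp.norm_single, norm_one, mul_one] at h
  refine le_trans ?_ h
  refine le_trans (le_of_eq ?_) (PiLp.norm_apply_le _ x)
  simp

lemma col_le {X : Matrix α α ℂ} (h : ‖X‖ ≤ 1) (j : α) : ∑ i, ‖X i j‖ ^ 2 ≤ 1 := by
  have a := entry_le (Xᴴ * X) j j
  rw [l2_opNorm_conjTranspose_mul_self] at a
  have b : (Xᴴ * X) j j = ((∑ i, ‖X i j‖ ^ 2 : ℝ) : ℂ) := by
    simp [mul_apply, Complex.conj_mul']
  rw [b, Complex.norm_real] at a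
  exact (le_abs_self _).trans (a.trans (mul_le_one₀ h (norm_nonneg _) h))

lemma row_le {X : Matrix α α ℂ} (h : ‖X‖ ≤ 1) (i : α) : ∑ j, ‖X i j‖ ^ 2 ≤ 1 := by
  simpa using col_le (X := Xᴴ) (by rwa [l2_opNorm_conjTranspose]) i

lemma norm_le_of_diag {X : Matrix β α ℂ} {d : α → ℂ} (h : Xᴴ * X = diagonal d)
    (hd : ∀ i, ‖d i‖ ≤ 1) : ‖X‖ ≤ 1 := by
  have a := l2_opNorm_conjTranspose_mul_self X
  rw [h, l2_opNorm_diagonal] at a
  have := (pi_norm_le_iff_of_nonneg zero_le_one).mpr hd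
  nlinarith [norm_nonneg X]

lemma norm_conj_le {X : Matrix β α ℂ} {b : Matrix β β ℂ} (hX : ‖X‖ ≤ 1) (hb : ‖b‖ ≤ 1) :
    ‖Xᴴ * b * X‖ ≤ 1 := by
  refine (l2_opNorm_mul _ _).trans (mul_le_one₀ ((l2_opNorm_mul _ _).trans ?_) (norm_nonneg _) hX)
  rw [l2_opNorm_conjTranspose]
  exact mul_le_one₀ hX (norm_nonneg _) hb

/-- Off-diagonal bound in the Schmidt frame. -/
def Bd (l : α → ℝ) (W : Matrix γ α ℂ) (N : ℝ) (V : Matrix γ γ ℂ) : Prop :=
  ∃ t : α → α → ℝ, (∀ i j, 0 ≤ t i j) ∧ (∀ i j, i ≠ j → ‖(Wᴴ * V * W) i j‖ ≤ √(l i * l j) * t i j) ∧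
    (∀ i, ∑ j, t i j ≤ N) ∧ ∀ j, ∑ i, t i j ≤ N

section
variable {l : α → ℝ} {W : Matrix γ α ℂ}
omit [DecidableEq α] [DecidableEq γ]

lemma Bd.of_zero {V : Matrix γ γ ℂ} (h : ∀ i j, i ≠ j → (Wᴴ * V * W) i j = 0) : Bd l W 0 V :=
  ⟨0, by simp, fun i j hij => by simp [h i j hij], by simp, by simp⟩

lemma Bd.mono {N N' : ℝ} {V : Matrix γ γ ℂ} (h : Bd l W N V) (hN : N ≤ N') : Bd l W N' V :=
  let ⟨t, a, b, c, d⟩ := h
  ⟨t, a, b, fun i => (c i).trans hN, fun i => (d i).trans hN⟩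

lemma Bd.add {N N' : ℝ} {V V' : Matrix γ γ ℂ} (h : Bd l W N V) (h' : Bd l W N' V') :
    Bd l W (N + N') (V + V') := by
  obtain ⟨t, a, b, c, d⟩ := h
  obtain ⟨t', a', b', c', d'⟩ := h'
  refine ⟨fun i j => t i j + t' i j, fun i j => add_nonneg (a i j) (a' i j), fun i j hij => ?_,
    fun i => ?_, fun i => ?_⟩
  · rw [Matrix.mul_add, Matrix.add_mul, Matrix.add_apply, mul_add]
    exact (norm_add_le _ _).trans (add_le_add (b i j hij) (b' i j hij))
  · rw [sum_add_distrib]; exact add_le_add (c i) (c' i)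
  · rw [sum_add_distrib]; exact add_le_add (d i) (d' i)

lemma Bd.smul {N : ℝ} {V : Matrix γ γ ℂ} (h : Bd l W N V) (z : ℂ) :
    Bd l W (‖z‖ * N) (z • V) := by
  obtain ⟨t, a, b, c, d⟩ := h
  refine ⟨fun i j => ‖z‖ * t i j, fun i j => mul_nonneg (norm_nonneg _) (a i j),
    fun i j hij => ?_, fun i => ?_, fun i => ?_⟩
  · rw [Matrix.mul_smul, Matrix.smul_mul, Matrix.smul_apply, norm_smul, mul_left_comm]
    exact mul_le_mul_of_nonneg_left (b i j hij) (norm_nonneg _)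
  · rw [← mul_sum]; exact mul_le_mul_of_nonneg_left (c i) (norm_nonneg _)
  · rw [← mul_sum]; exact mul_le_mul_of_nonneg_left (d i) (norm_nonneg _)

lemma Bd.sum {κ : Type} (s : Finset κ) {N : κ → ℝ} {V : κ → Matrix γ γ ℂ}
    (h : ∀ k ∈ s, Bd l W (N k) (V k)) : Bd l W (∑ k ∈ s, N k) (∑ k ∈ s, V k) := by
  classical
  induction s using Finset.induction_on with
  | empty => exact Bd.of_zero (by simp)
  | insert k s hk ih =>
    rw [sum_insert hk, sum_insert hk]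
    exact (h k (mem_insert_self _ _)).add (ih fun k hk => h k (mem_insert_of_mem hk))

end

/-- The Schmidt frame. -/
def frame (e : γ ≃ α × β) (U : Matrix α α ℂ) (m : Matrix α β ℂ) : Matrix γ α ℂ :=
  of fun s i => U (e s).1 i * m i (e s).2

/-- Tensor product of operators on the two factors. -/
def kron (e : γ ≃ α × β) (a : Matrix α α ℂ) (b : Matrix β β ℂ) : Matrix γ γ ℂ :=
  of fun s t => a (e s).1 (e t).1 * b (e s).2 (e t).2

variable {e : γ ≃ α × β} {U : Matrix α α ℂ} {m : Matrix α β ℂ} {l : α → ℝ}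

omit [DecidableEq α] [DecidableEq β] [DecidableEq γ] in
lemma frame_kron (a : Matrix α α ℂ) (b : Matrix β β ℂ) (i j : α) :
    ((frame e U m)ᴴ * kron e a b * frame e U m) i j =
      (Uᴴ * a * U) i j * ((mᵀ)ᴴ * b * mᵀ) i j := by
  simp only [mul_apply, frame, kron, of_apply, conjTranspose_apply, transpose_apply]
  rw [← e.symm.sum_comp, Fintype.sum_prod_type, sum_mul_sum]
  refine sum_congr rfl fun x _ => sum_congr rfl fun y _ => ?_
  rw [← e.symm.sum_comp, Fintype.sum_prod_type, mul_mul_mul_comm, sum_mul_sum]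
  simp only [Equiv.apply_symm_apply, star_mul']
  congr 1
  refine sum_congr rfl fun x _ => sum_congr rfl fun y _ => ?_
  ring

omit [Fintype α] [Fintype β] [Fintype γ] in
lemma kron_one : kron e (1 : Matrix α α ℂ) (1 : Matrix β β ℂ) = 1 := by
  ext s t
  simp only [kron, of_apply, one_apply, ← e.injective.eq_iff (a := s), Prod.ext_iff]
  split_ifs <;> simp_all

lemma bd_left (hm : (mᵀ)ᴴ * mᵀ = diagonal fun i => (l i : ℂ)) (a : Matrix α α ℂ) :
    Bd l (frame e U m) 0 (kron e a 1) :=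
  Bd.of_zero fun i j hij => by rw [frame_kron, Matrix.mul_one, hm]; simp [hij]

omit [DecidableEq β] in
lemma bd_right (hU : Uᴴ * U = 1) (b : Matrix β β ℂ) : Bd l (frame e U m) 0 (kron e 1 b) :=
  Bd.of_zero fun i j hij => by rw [frame_kron, Matrix.mul_one, hU]; simp [hij]

lemma bd_kron (hU : Uᴴ * U = 1) (hl : ∀ i, 0 ≤ l i)
    (hm : (mᵀ)ᴴ * mᵀ = diagonal fun i => (l i : ℂ)) {a : Matrix α α ℂ} {b : Matrix β β ℂ}
    (ha : ‖a‖ ≤ 1) (hb : ‖b‖ ≤ 1) : Bd l (frame e U m) 1 (kron e a b) := by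
  set n : Matrix β α ℂ := mᵀ * diagonal fun i => ((√(l i) : ℝ) : ℂ)⁻¹ with hn
  have h1 : ‖n‖ ≤ 1 := by
    refine norm_le_of_diag (d := fun i => star ((√(l i) : ℝ) : ℂ)⁻¹ * l i * ((√(l i) : ℝ) : ℂ)⁻¹)
      ?_ fun i => ?_
    · rw [hn, conjTranspose_mul, Matrix.mul_assoc, ← Matrix.mul_assoc (mᵀ)ᴴ, hm,
        diagonal_conjTranspose, diagonal_mul_diagonal, diagonal_mul_diagonal]
      simp [mul_assoc]
    · rcases (hl i).eq_or_lt with h | h
      · simp [← h]
      · have := Real.sqrt_pos.mpr h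
        simp only [norm_mul, norm_star, norm_inv, Complex.norm_real, Real.norm_eq_abs,
          abs_of_pos h, abs_of_pos this]
        rw [mul_right_comm, ← mul_inv, Real.mul_self_sqrt h.le, inv_mul_cancel₀ h.ne']
  have h2 : ∀ y i, m i y = n y i * (√(l i) : ℝ) := by
    intro y i
    rcases (hl i).eq_or_lt with h | h
    · have a := congrFun (congrFun hm i) i
      have b : ((mᵀ)ᴴ * mᵀ) i i = ((∑ y, ‖m i y‖ ^ 2 : ℝ) : ℂ) := by
        simp [mul_apply, Complex.conj_mul']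
      rw [b, diagonal_apply_eq, Complex.ofReal_inj, ← h,
        sum_eq_zero_iff_of_nonneg fun _ _ => sq_nonneg _] at a
      simpa [← h] using a y (mem_univ _)
    · have : ((√(l i) : ℝ) : ℂ) ≠ 0 := Complex.ofReal_ne_zero.mpr (Real.sqrt_pos.mpr h).ne'
      simp [hn, mul_diagonal, this]
  have h3 := norm_conj_le (norm_le_of_diag (d := fun _ => 1) (by rw [hU, diagonal_one]) (by simp)) ha
  have h4 := norm_conj_le h1 hb
  refine ⟨fun i j => (‖(Uᴴ * a * U) i j‖ ^ 2 + ‖(nᴴ * b * n) i j‖ ^ 2) / 2, fun i j => by positivity,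
    fun i j _ => ?_, fun i => ?_, fun i => ?_⟩
  · have : ((mᵀ)ᴴ * b * mᵀ) i j = (√(l i * l j) : ℝ) * (nᴴ * b * n) i j := by
      simp only [mul_apply, conjTranspose_apply, transpose_apply, h2, Real.sqrt_mul (hl i),
        mul_sum, sum_mul, star_mul', Complex.ofReal_mul, Complex.star_def, Complex.conj_ofReal]
      refine sum_congr rfl fun x _ => sum_congr rfl fun y _ => ?_
      ring
    rw [frame_kron, this, norm_mul, norm_mul, Complex.norm_real, Real.norm_eq_abs,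
      abs_of_nonneg (Real.sqrt_nonneg _), mul_left_comm]
    refine mul_le_mul_of_nonneg_left ?_ (Real.sqrt_nonneg _)
    nlinarith [sq_nonneg (‖(Uᴴ * a * U) i j‖ - ‖(nᴴ * b * n) i j‖)]
  · rw [← sum_div, sum_add_distrib]
    linarith [row_le h3 i, row_le h4 i]
  · rw [← sum_div, sum_add_distrib]
    linarith [col_le h3 i, col_le h4 i]

/-- The gap gives a Poincare inequality on the Schmidt spectrum. -/
theorem poincare {W : Matrix γ α ℂ} (hW : Wᴴ * W = diagonal fun i => (l i : ℂ))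
    {H : Matrix γ γ ℂ} (hH : H.IsHermitian) {E Δ : ℝ} {Ω : γ → ℂ} (hΩ : W *ᵥ (fun _ => 1) = Ω)
    (he : H *ᵥ Ω = (E : ℂ) • Ω)
    (hG : (H - (E : ℂ) • 1 - (Δ : ℂ) • (1 - vecMulVec Ω (star Ω))).PosSemidef)
    {t : α → α → ℝ} (ht : ∀ i j, i ≠ j → ‖(Wᴴ * H * W) i j‖ ≤ √(l i * l j) * t i j) (f : α → ℝ) :
    Δ * (∑ i, l i * f i ^ 2 - (∑ i, l i * f i) ^ 2) ≤
      1 / 2 * ∑ i, ∑ j, (f i - f j) ^ 2 * √(l i * l j) * t i j := by
  set T := Wᴴ * (H - (E : ℂ) • 1) * W with hT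
  have h1 : Wᴴ *ᵥ Ω = fun i => (l i : ℂ) := by
    rw [← hΩ, mulVec_mulVec, hW]; ext i; simp [mulVec_diagonal]
  have h2 : ∀ i, ∑ j, (T i j).re = 0 := by
    intro i
    have : T *ᵥ (fun _ => 1) = 0 := by
      rw [hT, ← mulVec_mulVec, ← mulVec_mulVec, hΩ, sub_mulVec, he, smul_mulVec, one_mulVec,
        sub_self, mulVec_zero]
    have := congrArg Complex.re (congrFun this i)
    simpa [mulVec, dotProduct] using this
  have h3 : ∀ i j, (T i j).re = (T j i).re := by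
    intro i j
    have : Tᴴ = T := by
      simp [hT, conjTranspose_mul, Matrix.mul_assoc, hH.eq]
    rw [← this, conjTranspose_apply, this]; simp
  have h4 : Wᴴ * (H - (E : ℂ) • 1 - (Δ : ℂ) • (1 - vecMulVec Ω (star Ω))) * W =
      T - (Δ : ℂ) • (diagonal (fun i => (l i : ℂ)) - of fun i j => ((l i * l j : ℝ) : ℂ)) := by
    rw [Matrix.mul_sub, Matrix.sub_mul, Matrix.mul_smul, Matrix.smul_mul, Matrix.mul_sub _ 1,
      Matrix.sub_mul, Matrix.mul_one, hW, mul_vecMulVec, vecMulVec_mul, h1,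
      ← conjTranspose_conjTranspose W, ← star_mulVec, conjTranspose_conjTranspose, h1]
    ext i j
    simp [vecMulVec_apply, hT]
  have h5 := (hG.conjTranspose_mul_mul_same W).re_dotProduct_nonneg fun i => (f i : ℂ)
  have h6 : ∑ i, ∑ j, f i * f j * (T i j).re - Δ * (∑ i, l i * f i ^ 2 - (∑ i, l i * f i) ^ 2) =
      RCLike.re (star (fun i => (f i : ℂ)) ⬝ᵥ ((T - (Δ : ℂ) • (diagonal (fun i => (l i : ℂ)) -
        of fun i j => ((l i * l j : ℝ) : ℂ))) *ᵥ fun i => (f i : ℂ))) := by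
    rw [sub_mulVec, smul_mulVec, sub_mulVec, dotProduct_sub, dotProduct_smul, dotProduct_sub,
      sq (∑ i, l i * f i), sum_mul_sum]
    simp only [dotProduct, mulVec_diagonal]
    simp only [mulVec, dotProduct, mul_sum]
    simp [mul_comm, mul_left_comm, sq, mul_assoc]
  rw [h4, ← h6] at h5
  have h7 : ∑ i, ∑ j, f i * f j * (T i j).re =
      1 / 2 * ∑ i, ∑ j, (f i - f j) ^ 2 * -(T i j).re := by
    have a : ∑ i, ∑ j, f i ^ 2 * (T i j).re = 0 := by simp [← mul_sum, h2]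
    have b : ∑ i, ∑ j, f j ^ 2 * (T i j).re = 0 := by
      rw [sum_comm]; simpa only [h3 _ _] using a
    have c : ∑ i, ∑ j, (f i - f j) ^ 2 * -(T i j).re = 2 * ∑ i, ∑ j, f i * f j * (T i j).re -
        ∑ i, ∑ j, f i ^ 2 * (T i j).re - ∑ i, ∑ j, f j ^ 2 * (T i j).re := by
      simp only [mul_sum, ← sum_sub_distrib]
      refine sum_congr rfl fun i _ => sum_congr rfl fun j _ => ?_
      ring
    rw [c, a, b]; ring
  refine (sub_nonneg.mp h5).trans (h7.le.trans ?_)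
  refine mul_le_mul_of_nonneg_left (sum_le_sum fun i _ => sum_le_sum fun j _ => ?_) (by norm_num)
  by_cases hij : i = j
  · simp [hij]
  rw [mul_assoc]
  refine mul_le_mul_of_nonneg_left (le_trans ?_ (ht i j hij)) (sq_nonneg _)
  have : T i j = (Wᴴ * H * W) i j := by
    rw [hT, Matrix.mul_sub, Matrix.sub_mul, Matrix.mul_smul, Matrix.mul_one, Matrix.smul_mul, hW]
    simp [hij]
  rw [← this]
  exact (neg_le_abs _).trans (Complex.abs_re_le_norm _)

end Vale.Agent.P356
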