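import Vale.Agent.P356.Defs
import Vale.Agent.P356.Quant

/-! Lattice geometry and the decomposition of local terms. -/

namespace Vale.Agent.P356

open Matrix Finset
open scoped Matrix.Norms.L2Operator ComplexOrder

variable {L q : ℕ}

lemma dist1_tri (x y z : Site L) : dist1 x z ≤ dist1 x y + dist1 y z := by
  simp only [dist1, Nat.dist]; omega

lemma dist1_comm (x y : Site L) : dist1 x y = dist1 y x := by
  simp only [dist1, Nat.dist]; omega

lemma exists_edge (A : Finset (Site L)) {y : Site L} (hy : y ∉ A) : ∀ d, ∀ x ∈ A, dist1 x y = d →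
    ∃ u ∈ A, ∃ v ∉ A, dist1 u v = 1 ∧ dist1 x u ≤ d := by
  intro d
  induction d with
  | zero =>
    intro x hx h
    have : x = y := by
      simp only [dist1, Nat.dist] at h
      ext <;> omega
    exact absurd (this ▸ hx) hy
  | succ d ih =>
    intro x hx h
    obtain ⟨z, h1, h2⟩ : ∃ z, dist1 x z = 1 ∧ dist1 z y = d := by
      obtain ⟨⟨a, ha⟩, ⟨b, hb⟩⟩ := x
      obtain ⟨⟨c, hc⟩, ⟨e, he⟩⟩ := y
      simp only [dist1, Nat.dist] at h ⊢
      rcases lt_trichotomy a c with k | k | k
      · exact ⟨(⟨a + 1, by omega⟩, ⟨b, hb⟩), by simp only; omega, by simp only; omega⟩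
      · rcases lt_or_ge b e with k' | k'
        · exact ⟨(⟨a, ha⟩, ⟨b + 1, by omega⟩), by simp only; omega, by simp only; omega⟩
        · exact ⟨(⟨a, ha⟩, ⟨b - 1, by omega⟩), by simp only; omega, by simp only; omega⟩
      · exact ⟨(⟨a - 1, by omega⟩, ⟨b, hb⟩), by simp only; omega, by simp only; omega⟩
    by_cases hz : z ∈ A
    · obtain ⟨u, hu, v, hv, a, b⟩ := ih z hz h2
      refine ⟨u, hu, v, hv, a, ?_⟩
      have := dist1_tri x z u
      omega
    · exact ⟨x, hx, z, hz, h1, by simp [dist1]⟩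

/-- Balls. -/
def ball (x : Site L) (r : ℕ) : Finset (Site L) := univ.filter fun w => dist1 x w ≤ r

lemma mem_ball {x w : Site L} {r : ℕ} : w ∈ ball x r ↔ dist1 x w ≤ r := by simp [ball]

lemma card_ball (x : Site L) (r : ℕ) : (ball x r).card ≤ (2 * r + 1) ^ 2 := by
  have := card_le_card_of_injOn (s := ball x r) (t := range (2 * r + 1) ×ˢ range (2 * r + 1))
    (fun w => (w.1 + r - x.1, w.2 + r - x.2)) (fun w hw => by
      have hw := mem_ball.mp hw
      simp only [dist1, Nat.dist] at hw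
      simp only [coe_product, coe_range, Set.mem_prod, Set.mem_Iio]
      omega) (fun w hw w' hw' h => by
      have hw := mem_ball.mp hw
      have hw' := mem_ball.mp hw'
      simp only [dist1, Nat.dist, Prod.mk.injEq] at hw hw' h
      ext <;> omega)
  simpa [sq] using this

lemma card_cross (A : Finset (Site L)) (R : ℕ) :
    (univ.filter fun X : Finset (Site L) => (∀ x ∈ X, ∀ y ∈ X, dist1 x y ≤ R) ∧
      (∃ x ∈ X, x ∈ A) ∧ ∃ y ∈ X, y ∉ A).card ≤ bdry A * 2 ^ (2 * (2 * R) + 1) ^ 2 := by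
  refine le_trans (card_le_card (t := (univ.filter fun p : Site L × Site L =>
    p.1 ∈ A ∧ p.2 ∉ A ∧ dist1 p.1 p.2 = 1).biUnion fun p => (ball p.1 (2 * R)).powerset) ?_)
    (card_biUnion_le_card_mul _ _ _ fun p _ => ?_)
  · intro X hX
    obtain ⟨h, ⟨x, hx, hxA⟩, y, hy, hyA⟩ := (mem_filter.mp hX).2
    obtain ⟨u, hu, v, hv, a, b⟩ := exists_edge A hyA _ x hxA rfl
    refine mem_biUnion.mpr ⟨(u, v), by simp [hu, hv, a], mem_powerset.mpr fun w hw => ?_⟩
    have c := h x hx y hy
    have d := h x hx w hw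
    have e := dist1_tri u x w
    rw [dist1_comm] at b
    exact mem_ball.mpr (show dist1 u w ≤ 2 * R by omega)
  · rw [card_powerset]
    exact Nat.pow_le_pow_right two_pos (card_ball _ _)

/-- Matrix units on the part of `X` where `p` holds. -/
def unit (p : Site L → Prop) [DecidablePred p] [Fintype {x // p x}] (X : Finset (Site L))
    (σ τ : X → Fin q) :
    Matrix ({x // p x} → Fin q) ({x // p x} → Fin q) ℂ :=
  of fun a b => if ∀ x : {x // p x}, if h : x.1 ∈ X then a x = σ ⟨x, h⟩ ∧ b x = τ ⟨x, h⟩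
    else a x = b x then 1 else 0

lemma unit_eq_one {p : Site L → Prop} [DecidablePred p] [Fintype {x // p x}] {X : Finset (Site L)}
    (h : ∀ x ∈ X, ¬ p x) (σ τ : X → Fin q) : unit p X σ τ = 1 := by
  ext a b
  have : ∀ x : {x // p x}, x.1 ∉ X := fun x hx => h _ hx x.2
  simp [unit, this, one_apply, funext_iff]

lemma norm_unit (p : Site L → Prop) [DecidablePred p] [Fintype {x // p x}] (X : Finset (Site L))
    (σ τ : X → Fin q) : ‖unit p X σ τ‖ ≤ 1 := by
  refine norm_le_of_diag (d := fun b => if ∀ x : {x // p x}, ∀ h : x.1 ∈ X, b x = τ ⟨x, h⟩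
    then 1 else 0) ?_ fun b => by split_ifs <;> simp
  ext b b'
  rw [mul_apply, sum_eq_single fun x : {x // p x} => if h : x.1 ∈ X then σ ⟨x, h⟩ else b x]
  · simp only [unit, conjTranspose_apply, of_apply, diagonal_apply, apply_ite star, star_one,
      star_zero, ite_zero_mul_ite_zero, mul_one, ← ite_and]
    refine if_congr ⟨fun ⟨h1, h2⟩ => ⟨funext fun x => ?_, fun x h => ?_⟩, ?_⟩ rfl rfl
    · have a := h1 x
      have a' := h2 x
      by_cases h : x.1 ∈ X <;> simp_all
    · simpa [h] using h1 x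
    · rintro ⟨rfl, h1⟩
      rw [and_self]
      intro x
      by_cases h : x.1 ∈ X
      · simpa [h] using h1 x h
      · simp [h]
  · intro a _ ha
    rw [conjTranspose_apply, unit, of_apply, if_neg, star_zero, zero_mul]
    refine fun h1 => ha (funext fun x => ?_)
    have a := h1 x
    by_cases h : x.1 ∈ X <;> simp_all
  · simp

lemma acts_decomp (A : Finset (Site L)) {X : Finset (Site L)} {h : Matrix (Cfg L q) (Cfg L q) ℂ}
    {g : Matrix (X → Fin q) (X → Fin q) ℂ}
    (hg : ∀ s t, h s t = if ∀ x ∉ X, s x = t x then g (fun x => s x) (fun x => t x) else 0) :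
    h = ∑ σ : (X → Fin q) × (X → Fin q), g σ.1 σ.2 •
      kron (Equiv.piEquivPiSubtypeProd (· ∈ A) fun _ => Fin q) (unit (· ∈ A) X σ.1 σ.2)
        (unit (· ∉ A) X σ.1 σ.2) := by
  ext s t
  rw [Matrix.sum_apply, sum_eq_single ((fun x : X => s x), (fun x : X => t x)), hg]
  · simp only [Matrix.smul_apply, kron, unit, of_apply, ite_zero_mul_ite_zero,
      Equiv.piEquivPiSubtypeProd_apply]
    rw [smul_eq_mul, mul_ite, mul_zero, mul_one, mul_one]
    refine if_congr ⟨fun h1 => ⟨fun x => ?_, fun x => ?_⟩, fun ⟨h1, h2⟩ x hx => ?_⟩ rfl rfl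
    · split_ifs with h
      exacts [by simp, h1 x h]
    · split_ifs with h
      exacts [by simp, h1 x h]
    · by_cases hA : x ∈ A
      · simpa [hx] using h1 ⟨x, hA⟩
      · simpa [hx] using h2 ⟨x, hA⟩
  · intro σ _ hσ
    simp only [Matrix.smul_apply, kron, unit, of_apply, ite_zero_mul_ite_zero,
      Equiv.piEquivPiSubtypeProd_apply]
    rw [smul_eq_mul, mul_ite, mul_zero, mul_one, mul_one]
    refine if_neg fun ⟨h1, h2⟩ => hσ ?_
    have key : ∀ x : X, s x = σ.1 x ∧ t x = σ.2 x := fun x => by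
      by_cases hA : x.1 ∈ A
      · simpa using h1 ⟨x, hA⟩
      · simpa using h2 ⟨x, hA⟩
    exact Prod.ext (funext fun x => (key x).1.symm) (funext fun x => (key x).2.symm)
  · simp

end Vale.Agent.P356
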