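import Vale.Agent.P356.Iter

/-! Area law with a logarithmic correction for stoquastic Hamiltonians. -/

namespace Vale.Agent.P356

open Matrix Finset Real
open scoped Matrix.Norms.L2Operator ComplexOrder

variable {L q : ℕ}

lemma decomp (hq : 2 ≤ q) {R : ℕ} {J : ℝ} (A : Finset (Site L)) {X : Finset (Site L)}
    {h : Matrix (Cfg L q) (Cfg L q) ℂ} (ha : ActsOn X h) (hn : ‖h‖ ≤ J) :
    ∃ G G' V, (∀ x ∈ X, ∀ y ∈ X, dist1 x y ≤ R) →
      h = kron (Equiv.piEquivPiSubtypeProd (· ∈ A) fun _ => Fin q) G 1 +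
        kron (Equiv.piEquivPiSubtypeProd (· ∈ A) fun _ => Fin q) 1 G' + V ∧
      SB (Equiv.piEquivPiSubtypeProd (· ∈ A) fun _ => Fin q) (if (∃ x ∈ X, x ∈ A) ∧ ∃ y ∈ X, y ∉ A
        then ((q ^ (2 * R + 1) ^ 2) ^ 2 : ℕ) * J else 0) V ∧
      ‖V‖ ≤ if (∃ x ∈ X, x ∈ A) ∧ ∃ y ∈ X, y ∉ A then ((q ^ (2 * R + 1) ^ 2) ^ 2 : ℕ) * J else 0 := by
  obtain ⟨g, hg⟩ := ha
  set e := Equiv.piEquivPiSubtypeProd (· ∈ A) fun _ : Site L => Fin q with he
  have z1 : kron e 0 1 = 0 := by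
    ext s t
    simp only [kron, of_apply, Matrix.zero_apply, zero_mul]
  have z2 : kron e 1 0 = 0 := by
    ext s t
    simp only [kron, of_apply, Matrix.zero_apply, mul_zero]
  have hJ : 0 ≤ J := (norm_nonneg _).trans hn
  split_ifs with hc
  · refine ⟨0, 0, h, fun hX => ⟨by rw [z1, z2, zero_add, zero_add], ?_, hn.trans
      (le_mul_of_one_le_left hJ (Nat.one_le_cast.mpr (Nat.one_le_pow _ _ (by positivity))))⟩⟩
    rw [acts_decomp A hg]
    refine (SB.sum (N := fun σ : (X → Fin q) × (X → Fin q) => ‖g σ.1 σ.2‖ * 1) _ fun σ _ =>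
      ((sb_kron _ _).mono (mul_le_one₀ (norm_unit (· ∈ A) X σ.1 σ.2) (norm_nonneg _)
        (norm_unit (· ∉ A) X σ.1 σ.2))).smul _).mono ?_
    have h1 : ∀ σ τ, ‖g σ τ‖ ≤ J := fun σ τ => by
      have := (entry_le h (fun x => if h : x ∈ X then σ ⟨x, h⟩ else ⟨0, by omega⟩)
        fun x => if h : x ∈ X then τ ⟨x, h⟩ else ⟨0, by omega⟩).trans hn
      rw [hg, if_pos fun x hx => by simp [hx]] at this
      simpa using this
    obtain ⟨⟨x, hx, -⟩, -⟩ := hc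
    have h2 : X.card ≤ (2 * R + 1) ^ 2 :=
      (card_le_card fun w hw => mem_ball.mpr (hX x hx w hw)).trans (card_ball x R)
    refine (sum_le_card_nsmul _ _ J fun σ _ => by simpa using h1 σ.1 σ.2).trans ?_
    rw [nsmul_eq_mul]
    refine mul_le_mul_of_nonneg_right (Nat.cast_le.mpr ?_) hJ
    rw [card_univ, Fintype.card_prod, Fintype.card_fun, Fintype.card_fin, Fintype.card_coe, ← sq]
    exact Nat.pow_le_pow_left (Nat.pow_le_pow_right (by omega) h2) 2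
  · have hd := acts_decomp A hg
    rcases not_and_or.mp hc with h3 | h3 <;> push Not at h3
    · simp only [unit_eq_one h3, kron_sum'] at hd
      exact ⟨0, _, 0, fun _ => ⟨by rw [z1, zero_add, add_zero]; exact hd, SB.zero, norm_zero.le⟩⟩
    · simp only [unit_eq_one (p := (· ∉ A)) fun x hx => not_not.mpr (h3 x hx), kron_sum] at hd
      exact ⟨_, 0, 0, fun _ => ⟨by rw [z2, add_zero, add_zero]; exact hd, SB.zero, norm_zero.le⟩⟩

lemma sb_ham (hq : 2 ≤ q) {R : ℕ} {J E : ℝ} {H : Matrix (Cfg L q) (Cfg L q) ℂ} (hH : Stoq R J H)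
    (hE : (H - (E : ℂ) • 1).PosSemidef) (A : Finset (Site L)) :
    ∃ B, 0 ≤ B ∧ ∀ ε : ℝ, 0 ≤ ε → SB (Equiv.piEquivPiSubtypeProd (· ∈ A) fun _ => Fin q)
      (1 + 2 * ε * ((bdry A * 2 ^ (2 * (2 * R) + 1) ^ 2 : ℕ) *
        (((q ^ (2 * R + 1) ^ 2) ^ 2 : ℕ) * J)) + ε ^ 2 * B) (1 - (ε : ℂ) • (H - (E : ℂ) • 1)) := by
  obtain ⟨h, hh, -, hH⟩ := hH
  choose G G' V hV using fun X => decomp (R := R) hq A (hh X).2.1 (hh X).2.2
  set e := Equiv.piEquivPiSubtypeProd (· ∈ A) fun _ : Site L => Fin q with he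
  set S := univ.filter fun X : Finset (Site L) => X.Nonempty ∧ ∀ x ∈ X, ∀ y ∈ X, dist1 x y ≤ R
    with hS
  have hJ : 0 ≤ J := (norm_nonneg _).trans (hh ∅).2.2
  have hd : H - (E : ℂ) • 1 = kron e (∑ X ∈ S, G X - (E : ℂ) • 1) 1 + kron e 1 (∑ X ∈ S, G' X) +
      ∑ X ∈ S, V X := by
    rw [hH, sum_congr rfl fun X hX => (hV X (mem_filter.mp hX).2.2).1, ← kron_one (e := e)]
    ext s t
    simp only [kron, of_apply, Matrix.sub_apply, Matrix.add_apply, Matrix.smul_apply, smul_eq_mul,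
      Matrix.sum_apply, sum_add_distrib, sub_mul, sum_mul, mul_sum]
    ring
  have hN : (∑ X ∈ S, if (∃ x ∈ X, x ∈ A) ∧ ∃ y ∈ X, y ∉ A then
      ((q ^ (2 * R + 1) ^ 2) ^ 2 : ℕ) * J else 0) ≤ (bdry A * 2 ^ (2 * (2 * R) + 1) ^ 2 : ℕ) *
        (((q ^ (2 * R + 1) ^ 2) ^ 2 : ℕ) * J) := by
    rw [← sum_filter, sum_const, nsmul_eq_mul, hS, filter_filter]
    refine mul_le_mul_of_nonneg_right (Nat.cast_le.mpr (le_trans (card_le_card ?_)
      (card_cross A R))) (by positivity)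
    exact monotone_filter_right _ fun X _ hX => ⟨hX.1.2, hX.2⟩
  rw [hd] at hE ⊢
  exact sb_step hE ((SB.sum S fun X hX => (hV X (mem_filter.mp hX).2.2).2.1).mono hN)
    ((norm_sum_le _ _).trans ((sum_le_sum fun X hX => (hV X (mem_filter.mp hX).2.2).2.2).trans hN))

theorem start (hq : 2 ≤ q) {R : ℕ} {J a : ℝ} {H : Matrix (Cfg L q) (Cfg L q) ℂ}
    {ψ : Cfg L q → ℝ} (hH : Stoq R J H) (hψ : ∀ s, 0 < ψ s) (h1 : ∑ s, ψ s ^ 2 = 1) (ha : 0 < a)
    (hL : LSI H ψ a) (A : Finset (Site L)) :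
    ∃ φ : Cfg L q → ℝ, (∀ s, 0 ≤ φ s) ∧ ∑ s, φ s ^ 2 = 1 ∧
      Nuc (Equiv.piEquivPiSubtypeProd (· ∈ A) fun _ => Fin q) (fun s => φ s) 1 ∧
      exp (-((bdry A * 2 ^ (2 * (2 * R) + 1) ^ 2 : ℕ) * (2 * J) / a) / 2) ≤ ∑ s, φ s * ψ s := by
  have : Nonempty (Fin q) := ⟨⟨0, by omega⟩⟩
  obtain ⟨h, hh, hs, rfl⟩ := hH
  set e := Equiv.piEquivPiSubtypeProd (· ∈ A) fun _ : Site L => Fin q with hee
  set e' := e.trans (Equiv.prodComm _ _) with he'
  have hu := sum_marg e h1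
  have hv := sum_marg e' h1
  set φ : Cfg L q → ℝ := fun s => marg e ψ (e s).1 * marg e' ψ (e s).2 with hφ
  have h2 : ∑ s, φ s ^ 2 = 1 := by
    rw [← e.symm.sum_comp, Fintype.sum_prod_type]
    simp only [hφ, Equiv.apply_symm_apply, mul_pow, ← mul_sum, hv, mul_one, hu]
  have hJ : 0 ≤ J := (norm_nonneg _).trans (hh ∅).2.2
  have key : ∀ X, en (h X) φ - en (h X) ψ ≤
      if (∃ x ∈ X, x ∈ A) ∧ ∃ y ∈ X, y ∉ A then 2 * J else 0 := fun X => by
    split_ifs with hc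
    · have a1 := (abs_le.mp ((bil_le (h X) h2 h2).trans (hh X).2.2)).2
      have a2 := (abs_le.mp ((bil_le (h X) h1 h1).trans (hh X).2.2)).1
      unfold en
      linarith
    · obtain ⟨g, hg⟩ := (hh X).2.1
      have hs := hs X
      rw [acts_decomp A hg] at hs ⊢
      rw [sub_nonpos]
      rcases not_and_or.mp hc with h3 | h3 <;> push Not at h3
      · simp only [unit_eq_one h3, kron_sum'] at hs ⊢
        exact en_right e hs ψ hu
      · simp only [unit_eq_one (p := (· ∉ A)) fun x hx => not_not.mpr (h3 x hx), kron_sum] at hs ⊢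
        exact en_left e hs ψ hv
  have lin : ∀ (S : Finset (Finset (Site L))) (f : Cfg L q → ℝ),
      en (∑ X ∈ S, h X) f = ∑ X ∈ S, en (h X) f := fun S f => by
    simp only [en, Matrix.sum_apply, Complex.re_sum, mul_sum, sum_mul]
    exact (sum_congr rfl fun s _ => sum_comm).trans sum_comm
  have b := hL φ h2
  rw [lin, lin, ← sum_sub_distrib] at b
  replace b := b.trans (sum_le_sum fun X _ => key X)
  rw [← sum_filter, sum_const, nsmul_eq_mul, filter_filter] at b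
  replace b := b.trans (mul_le_mul_of_nonneg_right (Nat.cast_le.mpr (le_trans (card_le_card
    (monotone_filter_right _ fun X _ hX => ⟨hX.1.2, hX.2⟩)) (card_cross A R))) (by positivity))
  rw [← le_div_iff₀' ha] at b
  have p : ∀ s, 0 ≤ φ s := fun s => mul_nonneg (sqrt_nonneg _) (sqrt_nonneg _)
  exact ⟨φ, p, h2, nuc_tens hu hv, le_trans (exp_le_exp.mpr (by linarith)) (jensen h2 p hψ)⟩

end Vale.Agent.P356
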