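import Vale.Agent.P356.LogLaw

/-! Final assembly. -/

set_option linter.unusedSectionVars false

namespace Vale.Agent.P356

open Matrix Finset Real
open scoped Matrix.Norms.L2Operator ComplexOrder

section
variable {α β γ : Type} [Fintype α] [Fintype β] [Fintype γ] [DecidableEq α] [DecidableEq β]
  [DecidableEq γ] {e : γ ≃ α × β}

lemma en_shift (H : Matrix γ γ ℂ) (E : ℝ) (φ : γ → ℝ) :
    en (H - (E : ℂ) • 1) φ = en H φ - E * ∑ s, φ s ^ 2 := by
  simp only [en, mul_sum, ← sum_sub_distrib]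
  refine sum_congr rfl fun s _ => ?_
  simp only [Matrix.sub_apply, Complex.sub_re, mul_sub, sub_mul, sum_sub_distrib]
  rw [sum_eq_single s (f := fun t => φ s * (((E : ℂ) • (1 : Matrix γ γ ℂ)) s t).re * φ t)
    (fun t _ ht => by simp [ht.symm]) (by simp)]
  simp
  ring

lemma amplify {Y : Matrix γ γ ℂ} (hY : Y.IsHermitian) (ho : ∀ s t, s ≠ t → Y s t ≤ 0) {ψ : γ → ℝ}
    (hψ : ∀ s, 0 < ψ s) (h0 : Y *ᵥ (fun s => (ψ s : ℂ)) = 0) {a N B W t : ℝ}
    (hL : ∀ φ : γ → ℝ, ∑ s, φ s ^ 2 = 1 →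
      a * ∑ s, φ s ^ 2 * log (φ s ^ 2 / ψ s ^ 2) ≤ en Y φ) (ha : 0 < a) (hN : 0 ≤ N) (hB : 0 ≤ B)
    (hW : 0 ≤ W) (ht : 0 ≤ t)
    (hK : ∀ ε : ℝ, 0 ≤ ε → SB e (1 + 2 * ε * N + ε ^ 2 * B) (1 - (ε : ℂ) • Y))
    {φ : γ → ℝ} (p0 : ∀ s, 0 ≤ φ s) (p1 : ∑ s, φ s ^ 2 = 1) (p2 : Nuc e (fun s => φ s) 1)
    (p3 : exp (-W / 2) ≤ ∑ s, φ s * ψ s) :
    ∃ (χ : γ → ℝ) (o : ℝ), exp (-W / 2) ≤ o ∧ ∑ s, χ s * ψ s = o ∧
      Nuc e (fun s => χ s) (exp (2 * t * N + 1)) ∧
      log (∑ s, χ s ^ 2) - 2 * log o ≤ exp (-(2 * a * t)) * W + 1 := by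
  obtain ⟨n, hn⟩ := exists_nat_gt (t * (‖Y‖ + 2 * a + t * ‖Y‖ ^ 2 + t * B))
  have n0 : (0 : ℝ) < n := lt_of_le_of_lt (by positivity) hn
  set ε := t / n with hε
  have e0 : 0 ≤ ε := by positivity
  have e1 : n * ε = t := mul_div_cancel₀ _ n0.ne'
  have e2 : ε * (‖Y‖ + 2 * a + t * ‖Y‖ ^ 2 + t * B) ≤ 1 := by
    rw [hε, div_mul_eq_mul_div, div_le_one n0]
    exact hn.le
  have a1 : 0 ≤ ε * ‖Y‖ := by positivity
  have a2 : 0 ≤ ε * a := by positivity
  have a3 : 0 ≤ ε * (t * ‖Y‖ ^ 2) := by positivity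
  have a4 : 0 ≤ ε * (t * B) := by positivity
  have o0 := (exp_pos _).trans_le p3
  have l := log_le_log (exp_pos _) p3
  rw [log_exp] at l
  obtain ⟨χ, -, q1, q2, q3⟩ := iter (W := W) hY ho hψ h0 hL ha e0 (by linarith) (by linarith)
    (by positivity) (hK ε e0) o0 ⟨φ, p0, rfl, p2, by rw [p1, log_one]; linarith⟩ n
  refine ⟨χ, _, p3, q1, fun M => (q2 M).trans (mul_le_mul_of_nonneg_right ?_ (norm_nonneg _)),
    q3.trans (add_le_add (mul_le_mul_of_nonneg_right ?_ hW) ?_)⟩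
  · refine (pow_le_pow_left₀ (by positivity) (b := exp (2 * ε * N + ε ^ 2 * B))
      (by linarith [add_one_le_exp (2 * ε * N + ε ^ 2 * B)]) n).trans ?_
    rw [← exp_nat_mul, exp_le_exp, show n * (2 * ε * N + ε ^ 2 * B) =
      2 * (n * ε) * N + ε * (n * ε * B) by ring, e1]
    linarith
  · refine (pow_le_pow_left₀ (by linarith) (b := exp (-(2 * a * ε)))
      (by linarith [add_one_le_exp (-(2 * a * ε))]) n).trans ?_
    rw [← exp_nat_mul, ← e1]
    exact le_of_eq (by ring_nf)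
  · rw [show n * (ε ^ 2 * ‖Y‖ ^ 2) = ε * (n * ε * ‖Y‖ ^ 2) by ring, e1]
    linarith

end

theorem stoq_log (q R : ℕ) (hq : 2 ≤ q) (J Δ a : ℝ) (hΔ : 0 < Δ) (ha : 0 < a) : ∃ C : ℝ,
    ∀ (L : ℕ) (H : Matrix (Cfg L q) (Cfg L q) ℂ) (ψ : Cfg L q → ℝ), Stoq R J H → (∀ s, 0 < ψ s) →
    Gapped H (fun s => ψ s) Δ → LSI H ψ a → ∀ A : Finset (Site L),
      ent A (fun s => ψ s) ≤ C * (1 + bdry A : ℝ) * (1 + log (1 + bdry A)) := by
  obtain ⟨c, c0, hc⟩ := main q R hq J Δ hΔ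
  set K1 : ℝ := (2 ^ (2 * (2 * R) + 1) ^ 2 : ℕ) * (2 * J) / a with hK1
  set K0 : ℝ := (2 ^ (2 * (2 * R) + 1) ^ 2 : ℕ) * (((q ^ (2 * R + 1) ^ 2) ^ 2 : ℕ) * J) with hK0
  refine ⟨K1 + 4 + K0 / a + 2 / c * (5 + K1), fun L H ψ hH hψ hG hL A => ?_⟩
  have h1 : ∑ s, ψ s ^ 2 = 1 := by
    have := hG.1
    simp only [dotProduct, Pi.star_apply, Complex.star_def, Complex.conj_ofReal, ← sq] at this
    exact_mod_cast this
  obtain ⟨φ, p0, p1, p2, p3⟩ := start hq hH hψ h1 ha hL A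
  have hG' := hG
  obtain ⟨hu, E, he, hp⟩ := hG'
  have hP : (H - (E : ℂ) • 1).PosSemidef := by
    have b : (1 - vecMulVec (fun s => (ψ s : ℂ)) (star fun s => (ψ s : ℂ))).PosSemidef := by
      convert posSemidef_conjTranspose_mul_self
        (1 - vecMulVec (fun s => (ψ s : ℂ)) (star fun s => (ψ s : ℂ))) using 1
      rw [conjTranspose_sub, conjTranspose_one, conjTranspose_vecMulVec, star_star, sub_mul,
        mul_sub, mul_sub, vecMulVec_mul_vecMulVec, hu, one_smul]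
      simp
    simpa using hp.add (b.smul (a := (Δ : ℂ)) (by exact_mod_cast hΔ.le))
  obtain ⟨B, hB, hK⟩ := sb_ham hq hH hP A
  obtain ⟨h, hh, hs, hH⟩ := hH
  have hJ : 0 ≤ J := (norm_nonneg _).trans (hh ∅).2.2
  have k0 : 0 ≤ K0 := by positivity
  have k1 : 0 ≤ K1 := by positivity
  have n0 : (0 : ℝ) ≤ bdry A := Nat.cast_nonneg _
  have h0 : (H - (E : ℂ) • 1) *ᵥ (fun s => (ψ s : ℂ)) = 0 := by
    rw [sub_mulVec, he, smul_mulVec, one_mulVec, sub_self]
  have hE : en (H - (E : ℂ) • 1) ψ = 0 := sum_eq_zero fun s _ => by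
    have := congrArg Complex.re (congrFun h0 s)
    simp only [mulVec, dotProduct, Complex.re_sum, Complex.re_mul_ofReal, Pi.zero_apply,
      Complex.zero_re] at this
    simp only [mul_assoc, ← mul_sum, this, mul_zero]
  rw [Nat.cast_mul, mul_assoc, mul_div_assoc, ← hK1] at p3
  simp only [Nat.cast_mul (bdry A), mul_assoc (bdry A : ℝ), ← hK0] at hK
  clear_value K0 K1
  clear hK0 hK1
  obtain ⟨b, hb⟩ : ∃ b : ℝ, b = 1 + bdry A := ⟨_, rfl⟩
  rw [← hb]
  have b1 : 1 ≤ b := by linarith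
  have lb := log_nonneg b1
  obtain ⟨χ, o, q0, q1, q2, q3⟩ := amplify (t := log b / (4 * a)) hP.1 (fun s t hst => by
    rw [hH]
    simpa [Matrix.sum_apply, hst] using sum_nonpos fun X _ => hs X s t hst) hψ h0 (fun φ hφ => by
      have := hL φ hφ
      rw [en_shift, h1] at hE
      rw [en_shift, hφ]
      linarith) ha (by positivity) hB (by positivity) (by positivity) hK p0 p1 p2 p3
  have o0 := (exp_pos _).trans_le q0
  have lo := log_le_log (exp_pos _) q0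
  rw [log_exp] at lo
  set U : Matrix ({x // x ∈ A} → Fin q) ({x // x ∈ A} → Fin q) ℂ :=
    ↑(isHermitian_mul_conjTranspose_self (coef A fun s => (ψ s : ℂ))).eigenvectorUnitary with hU0
  have hm : (Uᴴ * coef A fun s => (ψ s : ℂ)) * (Uᴴ * coef A fun s => (ψ s : ℂ))ᴴ =
      diagonal fun i => (spec A (fun s => (ψ s : ℂ)) i : ℂ) := by
    refine Eq.trans ?_ (isHermitian_mul_conjTranspose_self
      (coef A fun s => (ψ s : ℂ))).conjStarAlgAut_star_eigenvectorUnitary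
    simp [hU0, Matrix.mul_assoc, star_eq_conjTranspose]
  set N := exp (2 * (log b / (4 * a)) * (bdry A * K0) + 1) with hN
  have N0 : 0 < N := exp_pos _
  have l0 := spec_nonneg A fun s => (ψ s : ℂ)
  have sp := split (Unitary.coe_star_mul_self _) (Unitary.coe_mul_star_self _) l0 hm N0.le q2
    (η := o / (2 * N)) (by positivity)
  have d : ((fun s => (χ s : ℂ)) ⬝ᵥ fun s => coef A (fun s => (ψ s : ℂ))
      ((Equiv.piEquivPiSubtypeProd (· ∈ A) fun _ : Site L => Fin q) s).1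
      ((Equiv.piEquivPiSubtypeProd (· ∈ A) fun _ : Site L => Fin q) s).2) = (o : ℂ) := by
    rw [← q1]
    simp [dotProduct, coef]
  rw [d, Complex.norm_real, Real.norm_eq_abs, abs_of_pos o0,
    show N * (o / (2 * N)) = o / 2 by field_simp] at sp
  set T := univ.filter fun i => (o / (2 * N)) ^ 2 ≤ spec A (fun s => (ψ s : ℂ)) i with hT
  set μ := ∑ i ∈ T, spec A (fun s => (ψ s : ℂ)) i with hμ
  have m0 : 0 ≤ μ := sum_nonneg fun i _ => l0 i
  have s1 : (o / 2) ^ 2 ≤ (∑ s, χ s ^ 2) * μ := by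
    rw [← nrm_real, ← sq_sqrt m0, ← mul_pow]
    exact pow_le_pow_left₀ (by positivity) (by linarith) 2
  have s0 : 0 < (∑ s, χ s ^ 2) * μ := lt_of_lt_of_le (by positivity) s1
  have m1 : 0 < μ := m0.lt_of_ne fun h => by simp [← h] at s0
  have r0 : 0 < ∑ s, χ s ^ 2 := (mul_pos_iff_of_pos_right m1).mp s0
  have s2 := log_le_log (by positivity) s1
  have l2 := log_le_sub_one_of_pos (x := 2) two_pos
  rw [log_mul r0.ne' m1.ne', log_pow, log_div o0.ne' two_ne_zero] at s2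
  have hD : (0 : ℝ) < T.card := Nat.cast_pos.mpr (card_pos.mpr (nonempty_of_sum_ne_zero m1.ne'))
  have s3 : T.card * (o / (2 * N)) ^ 2 ≤ 1 := by
    rw [← nsmul_eq_mul, ← (core hq hΔ ⟨h, hh, hH⟩ hG A).1]
    exact (card_nsmul_le_sum _ _ _ fun i hi => (mem_filter.mp hi).2).trans
      (sum_le_univ_sum_of_nonneg l0)
  have s4 := log_nonpos (by positivity) s3
  rw [log_mul hD.ne' (by positivity), log_pow, log_div o0.ne' (by positivity),
    log_mul two_ne_zero N0.ne', hN, log_exp] at s4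
  have a1 := (hc L H _ ⟨h, hh, hH⟩ hG A).2.2.2 T m1
  rw [← hb, ← hμ] at a1
  clear_value μ T N U
  clear hc hm sp d hK hT hμ hU0 q2 hH hh hs
  have r1 : 1 ≤ √b := one_le_sqrt.mpr b1
  have r2 : √b * √b = b := mul_self_sqrt (by linarith)
  have x1 : exp (-(2 * a * (log b / (4 * a)))) * √b = 1 := by
    rw [sqrt_eq_rpow, rpow_def_of_pos (by linarith), ← exp_add, exp_eq_one_iff]
    field_simp
    ring
  have x2 : exp (-(2 * a * (log b / (4 * a)))) * (bdry A * K1) ≤ K1 * √b := by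
    calc _ ≤ exp (-(2 * a * (log b / (4 * a)))) * (√b * √b * K1) := by
          rw [r2]
          gcongr
          linarith
      _ = _ := by rw [← mul_assoc, ← mul_assoc, x1]; ring
  have a2 : 1 - log μ ≤ (5 + K1) * √b := by
    push_cast at s2
    rw [add_mul]
    linarith only [s2, q3, x2, l2, r1]
  have a3 : ent A (fun s => (ψ s : ℂ)) - log T.card ≤ 2 / c * (5 + K1) * b := by
    rw [div_mul_eq_mul_div, div_mul_eq_mul_div, le_div_iff₀' c0]
    refine a1.trans ((mul_le_mul_of_nonneg_left a2 (by positivity)).trans (le_of_eq ?_))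
    rw [show 2 * √b * ((5 + K1) * √b) = 2 * (5 + K1) * (√b * √b) by ring, r2]
  have a4 : 2 * (log b / (4 * a)) * (bdry A * K0) * 2 ≤ K0 / a * b * log b := by
    rw [show 2 * (log b / (4 * a)) * (bdry A * K0) * 2 = K0 / a * bdry A * log b by
      field_simp; ring]
    gcongr
    linarith
  have a5 : 0 ≤ K0 / a * b := by positivity
  have a6 : 0 ≤ (K1 + 4 + 2 / c * (5 + K1)) * b * log b := by positivity
  push_cast at s4
  have a7 := mul_le_mul_of_nonneg_right (show (bdry A : ℝ) ≤ b by linarith only [hb]) k1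
  rw [show (K1 + 4 + K0 / a + 2 / c * (5 + K1)) * b * (1 + log b) = K0 / a * b * log b +
    K0 / a * b + (K1 + 4 + 2 / c * (5 + K1)) * b * log b + (b * K1 + 4 * b + 2 / c * (5 + K1) * b)
    by ring]
  linarith only [a3, a4, a5, a6, a7, s4, lo, l2, b1]

end Vale.Agent.P356
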