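import Vale.Agent.P356.Latt

/-! Concentration of the entanglement spectrum. -/

namespace Vale.Agent.P356

open Matrix Finset Real
open scoped Matrix.Norms.L2Operator ComplexOrder

variable {L q : ℕ}

lemma bd_term (hq : 2 ≤ q) {R : ℕ} {J : ℝ} (A : Finset (Site L))
    {U : Matrix ({x // x ∈ A} → Fin q) ({x // x ∈ A} → Fin q) ℂ}
    {m : Matrix ({x // x ∈ A} → Fin q) ({x // x ∉ A} → Fin q) ℂ}
    {l : ({x // x ∈ A} → Fin q) → ℝ} (hU : Uᴴ * U = 1)
    (hl : ∀ i, 0 ≤ l i) (hm : (mᵀ)ᴴ * mᵀ = diagonal fun i => (l i : ℂ)) {X : Finset (Site L)}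
    {h : Matrix (Cfg L q) (Cfg L q) ℂ} (ha : ActsOn X h) (hn : ‖h‖ ≤ J)
    (hX : ∀ x ∈ X, ∀ y ∈ X, dist1 x y ≤ R) :
    Bd l (frame (Equiv.piEquivPiSubtypeProd (· ∈ A) fun _ => Fin q) U m)
      (if (∃ x ∈ X, x ∈ A) ∧ ∃ y ∈ X, y ∉ A then ((q ^ (2 * R + 1) ^ 2) ^ 2 : ℕ) * J else 0) h := by
  obtain ⟨g, hg⟩ := ha
  rw [acts_decomp A hg]
  split_ifs with hc
  · refine (Bd.sum (N := fun σ : (X → Fin q) × (X → Fin q) => ‖g σ.1 σ.2‖ * 1) _ fun σ _ =>
      (bd_kron hU hl hm (norm_unit (· ∈ A) X σ.1 σ.2) (norm_unit (· ∉ A) X σ.1 σ.2)).smul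
      _).mono ?_
    have h1 : ∀ σ τ, ‖g σ τ‖ ≤ J := fun σ τ => by
      have := (entry_le h (fun x => if h : x ∈ X then σ ⟨x, h⟩ else ⟨0, by omega⟩)
        fun x => if h : x ∈ X then τ ⟨x, h⟩ else ⟨0, by omega⟩).trans hn
      rw [hg, if_pos fun x hx => by simp [hx]] at this
      simpa using this
    obtain ⟨⟨x, hx, -⟩, -⟩ := hc
    have h2 : X.card ≤ (2 * R + 1) ^ 2 :=
      (card_le_card fun w hw => mem_ball.mpr (hX x hx w hw)).trans (card_ball x R)
    refine (sum_le_card_nsmul _ _ J fun σ _ => by simpa using h1 σ.1 σ.2).trans ?_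
    rw [nsmul_eq_mul]
    refine mul_le_mul_of_nonneg_right (Nat.cast_le.mpr ?_) ((norm_nonneg _).trans hn)
    rw [card_univ, Fintype.card_prod, Fintype.card_fun, Fintype.card_fin, Fintype.card_coe, ← sq]
    exact Nat.pow_le_pow_left (Nat.pow_le_pow_right (by omega) h2) 2
  · refine (Bd.sum (N := fun _ => 0) _ fun σ _ => ?_).mono (by simp)
    rcases not_and_or.mp hc with h1 | h1 <;> push Not at h1
    · rw [unit_eq_one h1]
      simpa using (bd_right hU _).smul (g σ.1 σ.2)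
    · rw [unit_eq_one (p := (· ∉ A)) fun x hx => not_not.mpr (h1 x hx)]
      simpa using (bd_left hm _).smul (g σ.1 σ.2)

lemma spec_nonneg (A : Finset (Site L)) (Ω : Cfg L q → ℂ) (i) : 0 ≤ spec A Ω i :=
  (posSemidef_self_mul_conjTranspose _).eigenvalues_nonneg _

theorem core (hq : 2 ≤ q) {R : ℕ} {J Δ : ℝ} (hΔ : 0 < Δ) {H : Matrix (Cfg L q) (Cfg L q) ℂ}
    {Ω : Cfg L q → ℂ} (hH : Admissible R J H) (hG : Gapped H Ω Δ) (A : Finset (Site L)) :
    ∑ i, spec A Ω i = 1 ∧ ∀ θ : ℝ, |θ| ≤ 1 / 4 → 32 * ((bdry A * 2 ^ (2 * (2 * R) + 1) ^ 2 : ℕ) *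
      (((q ^ (2 * R + 1) ^ 2) ^ 2 : ℕ) * J)) * θ ^ 2 ≤ Δ →
      ∑ i, spec A Ω i * exp (θ * (-log (spec A Ω i) - ent A Ω)) ≤ 3 := by
  obtain ⟨h, hh, rfl⟩ := hH
  obtain ⟨h1, E, he, hG⟩ := hG
  set e := Equiv.piEquivPiSubtypeProd (· ∈ A) fun _ : Site L => Fin q with hee
  set U : Matrix ({x // x ∈ A} → Fin q) ({x // x ∈ A} → Fin q) ℂ :=
    ↑(isHermitian_mul_conjTranspose_self (coef A Ω)).eigenvectorUnitary with hU0
  have hU : Uᴴ * U = 1 := Unitary.coe_star_mul_self _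
  have hU' : U * Uᴴ = 1 := Unitary.coe_mul_star_self _
  have hm : ((Uᴴ * coef A Ω)ᵀ)ᴴ * (Uᴴ * coef A Ω)ᵀ = diagonal fun i => (spec A Ω i : ℂ) := by
    have := (isHermitian_mul_conjTranspose_self (coef A Ω)).conjStarAlgAut_star_eigenvectorUnitary
    have h2 : (Uᴴ * coef A Ω) * (Uᴴ * coef A Ω)ᴴ = diagonal fun i => (spec A Ω i : ℂ) := by
      refine Eq.trans ?_ this
      simp [hU0, Matrix.mul_assoc, star_eq_conjTranspose]
    rw [← diagonal_transpose, ← h2, transpose_mul (Uᴴ * coef A Ω)]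
    rfl
  set W := frame e U (Uᴴ * coef A Ω) with hW0
  have hW : Wᴴ * W = diagonal fun i => (spec A Ω i : ℂ) := by
    ext i j
    rw [← Matrix.mul_one Wᴴ, ← kron_one (e := e), hW0, frame_kron, Matrix.mul_one, Matrix.mul_one,
      hU, hm]
    by_cases hij : i = j
    · subst hij
      simp
    · simp [hij]
  have hΩ : W *ᵥ (fun _ => 1) = Ω := by
    ext s
    have : (U * (Uᴴ * coef A Ω)) (e s).1 (e s).2 = Ω s := by
      rw [← Matrix.mul_assoc, hU', Matrix.one_mul]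
      simp [coef, hee]
    simpa [hW0, mulVec, dotProduct, frame, mul_apply] using this
  have hs : ∑ i, spec A Ω i = 1 := by
    rw [← hΩ, star_mulVec, dotProduct_mulVec, vecMul_vecMul, hW] at h1
    simp only [dotProduct, vecMul_diagonal, Pi.star_apply, star_one, mul_one, one_mul] at h1
    exact_mod_cast h1
  refine ⟨hs, fun θ hθ hN => ?_⟩
  have hJ : 0 ≤ J := (norm_nonneg _).trans (hh ∅).2.2
  obtain ⟨t, t0, t1, t2, t3⟩ := (Bd.sum (univ.filter fun X : Finset (Site L) =>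
    X.Nonempty ∧ ∀ x ∈ X, ∀ y ∈ X, dist1 x y ≤ R) fun X hX => bd_term hq A hU (spec_nonneg A Ω) hm
      (hh X).2.1 (hh X).2.2 (mem_filter.mp hX).2.2).mono (N' := (bdry A * 2 ^ (2 * (2 * R) + 1) ^ 2 :
        ℕ) * (((q ^ (2 * R + 1) ^ 2) ^ 2 : ℕ) * J)) (by
    rw [← sum_filter, sum_const, nsmul_eq_mul, filter_filter]
    refine mul_le_mul_of_nonneg_right (Nat.cast_le.mpr (le_trans (card_le_card ?_)
      (card_cross A R))) (by positivity)
    exact monotone_filter_right _ fun X _ hX => ⟨hX.1.2, hX.2⟩)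
  have := mgf_le (spec_nonneg A Ω) hs t0 t2 t3 hΔ (poincare hW (by
    simp [IsHermitian, conjTranspose_sum, fun X => (hh X).1.eq]) hΩ he hG t1) hθ hN
  simpa only [ent, negMulLog, neg_mul, sum_neg_distrib] using this

theorem main (q R : ℕ) (hq : 2 ≤ q) (J Δ : ℝ) (hΔ : 0 < Δ) : ∃ c > 0, ∀ (L : ℕ)
    (H : Matrix (Cfg L q) (Cfg L q) ℂ) (Ω : Cfg L q → ℂ), Admissible R J H → Gapped H Ω Δ →
    ∀ A : Finset (Site L),
      (∀ θ : ℝ, |θ| ≤ c / √(1 + bdry A) →
        ∑ i, spec A Ω i * exp (θ * (-log (spec A Ω i) - ent A Ω)) ≤ 3) ∧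
      (∀ t : ℝ, ∑ i with t ≤ |-log (spec A Ω i) - ent A Ω|, spec A Ω i ≤
        6 * exp (-(c / √(1 + bdry A) * t))) ∧
      c ^ 2 * ∑ i, spec A Ω i * (-log (spec A Ω i) - ent A Ω) ^ 2 ≤ 12 * (1 + bdry A) ∧
      ∀ T : Finset ({x // x ∈ A} → Fin q), 0 < ∑ i ∈ T, spec A Ω i →
        c * (ent A Ω - log T.card) ≤ 2 * √(1 + bdry A) * (1 - log (∑ i ∈ T, spec A Ω i)) := by
  set K : ℝ := (2 ^ (2 * (2 * R) + 1) ^ 2 : ℕ) * (((q ^ (2 * R + 1) ^ 2) ^ 2 : ℕ) * J) with hK
  have hK1 : 0 < 32 * (|K| + 1) := by positivity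
  refine ⟨min (1 / 4) √(Δ / (32 * (|K| + 1))), by positivity, fun L H Ω hH hG A => ?_⟩
  set c := min (1 / 4) √(Δ / (32 * (|K| + 1))) with hc
  have c0 : 0 < c := by positivity
  have c2 : c ^ 2 * (32 * (|K| + 1)) ≤ Δ := by
    rw [← le_div_iff₀ hK1]
    exact (pow_le_pow_left₀ c0.le (min_le_right _ _) 2).trans (sq_sqrt (by positivity)).le
  obtain ⟨hs, hz⟩ := core hq hΔ hH hG A
  set r := √(1 + (bdry A : ℝ)) with hr
  have n0 : (0 : ℝ) ≤ bdry A := Nat.cast_nonneg _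
  have r1 : 1 ≤ r := one_le_sqrt.mpr (by linarith)
  have r2 : r ^ 2 = 1 + bdry A := sq_sqrt (by positivity)
  have cr : c / r ≤ 1 / 4 := (div_le_self c0.le r1).trans (min_le_left _ _)
  have cr0 : 0 < c / r := by positivity
  have ha : ∀ θ : ℝ, |θ| ≤ c / r →
      ∑ i, spec A Ω i * exp (θ * (-log (spec A Ω i) - ent A Ω)) ≤ 3 := by
    intro θ hθ
    refine hz θ (hθ.trans cr) ?_
    have a : θ ^ 2 * (1 + bdry A) ≤ c ^ 2 := by
      rw [← r2, ← sq_abs θ, ← mul_pow]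
      exact pow_le_pow_left₀ (by positivity) ((le_div_iff₀ (by positivity)).mp hθ) 2
    rw [Nat.cast_mul, mul_assoc (bdry A : ℝ), ← hK]
    have b : bdry A * θ ^ 2 * K ≤ c ^ 2 * |K| :=
      (mul_le_mul_of_nonneg_left (le_abs_self K) (by positivity)).trans
        (mul_le_mul_of_nonneg_right (by nlinarith [sq_nonneg θ]) (abs_nonneg K))
    nlinarith [sq_nonneg c]
  have p := ha (c / r) (abs_of_pos cr0).le
  have p' := ha (-(c / r)) (by rw [abs_neg]; exact (abs_of_pos cr0).le)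
  have l0 := spec_nonneg A Ω
  refine ⟨ha, fun t => ?_, ?_, fun T hi => ?_⟩
  · have : (∑ i with t ≤ |-log (spec A Ω i) - ent A Ω|, spec A Ω i) * exp (c / r * t) ≤ 6 := by
      rw [sum_mul]
      refine le_trans (sum_le_sum fun i hi => ?_) ((sum_le_univ_sum_of_nonneg fun i => ?_).trans
        (sum_add_distrib.le.trans ((add_le_add p p').trans (by norm_num))))
      · rw [← mul_add]
        refine mul_le_mul_of_nonneg_left ?_ (l0 i)
        rcases le_abs.mp (mem_filter.mp hi).2 with h | h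
        · exact (exp_le_exp.mpr (by nlinarith)).trans (le_add_of_nonneg_right (exp_pos _).le)
        · exact (exp_le_exp.mpr (by nlinarith)).trans (le_add_of_nonneg_left (exp_pos _).le)
      · have := l0 i
        positivity
    rwa [exp_neg, ← div_eq_mul_inv, le_div_iff₀ (exp_pos _)]
  · have q1 : ∀ x : ℝ, x ^ 2 / 2 ≤ exp x + exp (-x) := fun x => by
      wlog hx : 0 ≤ x generalizing x
      · simpa [add_comm] using this (-x) (by linarith)
      linarith [quadratic_le_exp_of_nonneg hx, exp_pos (-x)]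
    have : ∑ i, (c / r) ^ 2 / 2 * (spec A Ω i * (-log (spec A Ω i) - ent A Ω) ^ 2) ≤ 3 + 3 := by
      refine le_trans (sum_le_sum fun i _ => ?_) (sum_add_distrib.le.trans (add_le_add p p'))
      have := mul_le_mul_of_nonneg_left (q1 (c / r * (-log (spec A Ω i) - ent A Ω))) (l0 i)
      rw [neg_mul]
      nlinarith
    rw [← mul_sum, div_pow, r2, div_div, div_mul_eq_mul_div, div_le_iff₀ (by positivity)] at this
    linarith
  · set μ := ∑ i ∈ T, spec A Ω i with hμ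
    have hD : (0 : ℝ) < T.card := Nat.cast_pos.mpr (card_pos.mpr (nonempty_of_sum_ne_zero hi.ne'))
    have y0 : 0 < μ / T.card := by positivity
    have a : ∑ i ∈ T, exp (c / r * (log (μ / T.card) + ent A Ω)) *
        (spec A Ω i + c / r * (spec A Ω i - μ / T.card)) ≤ 3 := by
      refine le_trans (sum_le_sum fun i _ => ?_) ((sum_le_univ_sum_of_nonneg fun i => ?_).trans p')
      · rcases (l0 i).eq_or_lt with h | h
        · rw [← h, zero_mul, zero_add, zero_sub]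
          exact mul_nonpos_of_nonneg_of_nonpos (exp_pos _).le (by nlinarith)
        · have u := add_one_le_exp (c / r * (log (spec A Ω i) - log (μ / T.card)))
          have v := log_le_sub_one_of_pos (div_pos y0 h)
          rw [log_div y0.ne' h.ne', le_sub_iff_add_le, le_div_iff₀ h] at v
          rw [show -(c / r) * (-log (spec A Ω i) - ent A Ω) = c / r * (log (μ / T.card) + ent A Ω) +
            c / r * (log (spec A Ω i) - log (μ / T.card)) by ring, exp_add, mul_left_comm]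
          refine mul_le_mul_of_nonneg_left ?_ (exp_pos _).le
          nlinarith [mul_le_mul_of_nonneg_left u h.le, mul_le_mul_of_nonneg_left v cr0.le]
      · have := l0 i
        positivity
    rw [← mul_sum, sum_add_distrib, ← mul_sum, sum_sub_distrib, sum_const, nsmul_eq_mul, ← hμ,
      mul_div_cancel₀ _ hD.ne', sub_self, mul_zero, add_zero] at a
    have b := log_le_log (by positivity) a
    rw [log_mul (exp_pos _).ne' hi.ne', log_exp, log_div hi.ne' hD.ne'] at b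
    have d := log_le_sub_one_of_pos (x := 3) (by norm_num)
    have f : log μ ≤ 0 := log_nonpos hi.le (hs ▸ sum_le_univ_sum_of_nonneg l0)
    have g : c / r * (ent A Ω - log T.card) ≤ 2 * (1 - log μ) := by nlinarith
    rw [div_mul_eq_mul_div, div_le_iff₀ (by positivity)] at g
    linarith

end Vale.Agent.P356
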