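import Vale.Agent.P356.Main
import Vale.Agent.P356.DefsS

/-! Product overlap for stoquastic Hamiltonians. -/

set_option linter.unusedSectionVars false

namespace Vale.Agent.P356

open Matrix Finset Real
open scoped Matrix.Norms.L2Operator ComplexOrder

section
variable {α β γ : Type} [Fintype α] [Fintype β] [Fintype γ] [DecidableEq α] [DecidableEq β]
  [DecidableEq γ]

/-- Column matrix. -/
def colm (φ : γ → ℝ) : Matrix γ Unit ℂ := of fun s _ => (φ s : ℂ)

lemma norm_colm {φ : γ → ℝ} (h : ∑ s, φ s ^ 2 = 1) : ‖colm φ‖ ≤ 1 := by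
  refine norm_le_of_diag (d := fun _ => 1) ?_ (by simp)
  ext i j
  simp only [colm, mul_apply, conjTranspose_apply, of_apply, Complex.star_def, Complex.conj_ofReal,
    diagonal_apply_eq]
  exact_mod_cast (sum_congr rfl fun s _ => (sq (φ s)).symm).trans h

lemma bil_le (M : Matrix α β ℂ) {u : α → ℝ} {v : β → ℝ} (hu : ∑ s, u s ^ 2 = 1)
    (hv : ∑ s, v s ^ 2 = 1) : |∑ s, ∑ t, u s * (M s t).re * v t| ≤ ‖M‖ := by
  have a := entry_le ((colm u)ᴴ * M * colm v) () ()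
  have b : ‖(colm u)ᴴ * M * colm v‖ ≤ ‖M‖ := by
    refine (l2_opNorm_mul _ _).trans ((mul_le_of_le_one_right (norm_nonneg _) (norm_colm hv)).trans
      ((l2_opNorm_mul _ _).trans (mul_le_of_le_one_left (norm_nonneg _) ?_)))
    rw [l2_opNorm_conjTranspose]
    exact norm_colm hu
  refine le_trans (le_of_eq ?_) ((Complex.abs_re_le_norm _).trans (a.trans b))
  rw [sum_comm]
  simp [colm, mul_apply, sum_mul]

/-- Marginal amplitude. -/
noncomputable def marg (e : γ ≃ α × β) (ψ : γ → ℝ) (a : α) : ℝ := √(∑ b, ψ (e.symm (a, b)) ^ 2)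

lemma marg_sq (e : γ ≃ α × β) (ψ : γ → ℝ) (a : α) :
    marg e ψ a ^ 2 = ∑ b, ψ (e.symm (a, b)) ^ 2 := sq_sqrt (by positivity)

lemma sum_marg (e : γ ≃ α × β) {ψ : γ → ℝ} (h : ∑ s, ψ s ^ 2 = 1) : ∑ a, marg e ψ a ^ 2 = 1 := by
  rw [← h, ← e.symm.sum_comp, Fintype.sum_prod_type]
  exact sum_congr rfl fun a _ => marg_sq e ψ a

lemma kron_apply (e : γ ≃ α × β) (G : Matrix α α ℂ) (G' : Matrix β β ℂ) (a a' : α) (b b' : β) :
    kron e G G' (e.symm (a, b)) (e.symm (a', b')) = G a a' * G' b b' := by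
  rw [kron, of_apply, e.apply_symm_apply, e.apply_symm_apply]

lemma en_kron (e : γ ≃ α × β) (G : Matrix α α ℂ) (φ : γ → ℝ) :
    en (kron e G 1) φ = ∑ a, ∑ a', (G a a').re * ∑ b, φ (e.symm (a, b)) * φ (e.symm (a', b)) := by
  rw [en, ← e.symm.sum_comp, Fintype.sum_prod_type]
  refine sum_congr rfl fun a _ => ?_
  simp only [mul_sum]
  refine Eq.trans (sum_congr rfl fun b _ => ?_) sum_comm
  rw [← e.symm.sum_comp, Fintype.sum_prod_type]
  refine sum_congr rfl fun a' _ => ?_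
  rw [sum_eq_single b (fun b' _ hb => by simp [kron_apply, hb.symm]) (by simp)]
  simp [kron_apply]
  ring

lemma en_left [Nonempty β] (e : γ ≃ α × β) {G : Matrix α α ℂ}
    (hG : ∀ s t, s ≠ t → kron e G 1 s t ≤ 0) (ψ : γ → ℝ) {v : β → ℝ} (hv : ∑ b, v b ^ 2 = 1) :
    en (kron e G 1) (fun s => marg e ψ (e s).1 * v (e s).2) ≤ en (kron e G 1) ψ := by
  rw [en_kron, en_kron]
  refine sum_le_sum fun a _ => sum_le_sum fun a' _ => ?_
  have h : ∑ b, marg e ψ a * v b * (marg e ψ a' * v b) = marg e ψ a * marg e ψ a' := by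
    rw [← mul_one (_ * marg e ψ a'), ← hv, mul_sum]
    exact sum_congr rfl fun b _ => by ring
  simp only [Equiv.apply_symm_apply, h]
  by_cases ha : a = a'
  · subst ha
    simp only [← sq, marg_sq, le_refl]
  · obtain ⟨b⟩ := ‹Nonempty β›
    have := hG (e.symm (a, b)) (e.symm (a', b)) (by simpa using ha)
    replace this : G a a' ≤ 0 := by simpa [kron_apply] using this
    exact mul_le_mul_of_nonpos_left (sum_mul_le_sqrt_mul_sqrt _ _ _) (Complex.le_def.mp this).1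

lemma kron_sum {κ : Type} [Fintype κ] (e : γ ≃ α × β) (c : κ → ℂ) (G : κ → Matrix α α ℂ)
    (b : Matrix β β ℂ) : ∑ k, c k • kron e (G k) b = kron e (∑ k, c k • G k) b := by
  ext s t
  simp [kron, Matrix.sum_apply, sum_mul, mul_assoc]

lemma kron_swap (e : γ ≃ α × β) (a : Matrix α α ℂ) (b : Matrix β β ℂ) :
    kron e a b = kron (e.trans (Equiv.prodComm _ _)) b a := by
  ext s t
  simp [kron, mul_comm]

lemma kron_sum' {κ : Type} [Fintype κ] (e : γ ≃ α × β) (c : κ → ℂ) (G : κ → Matrix β β ℂ)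
    (b : Matrix α α ℂ) : ∑ k, c k • kron e b (G k) = kron e b (∑ k, c k • G k) := by
  simp only [kron_swap e b, kron_sum]

lemma en_right [Nonempty α] (e : γ ≃ α × β) {G : Matrix β β ℂ}
    (hG : ∀ s t, s ≠ t → kron e 1 G s t ≤ 0) (ψ : γ → ℝ) {v : α → ℝ} (hv : ∑ b, v b ^ 2 = 1) :
    en (kron e 1 G) (fun s => v (e s).1 * marg (e.trans (Equiv.prodComm _ _)) ψ (e s).2) ≤
      en (kron e 1 G) ψ := by
  rw [kron_swap] at hG ⊢
  simp only [mul_comm (v _)]
  exact en_left _ hG ψ hv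

lemma jensen {φ ψ : γ → ℝ} (h : ∑ s, φ s ^ 2 = 1) (h0 : ∀ s, 0 ≤ φ s) (hψ : ∀ s, 0 < ψ s) :
    exp (-(∑ s, φ s ^ 2 * log (φ s ^ 2 / ψ s ^ 2)) / 2) ≤ ∑ s, φ s * ψ s := by
  set D := ∑ s, φ s ^ 2 * log (φ s ^ 2 / ψ s ^ 2) with hD
  have : ∑ s, exp (-D / 2) * (φ s ^ 2 * (1 + D / 2) - φ s ^ 2 * log (φ s ^ 2 / ψ s ^ 2) / 2) ≤
      ∑ s, φ s * ψ s := by
    refine sum_le_sum fun s _ => ?_
    rcases (h0 s).eq_or_lt with h | h
    · simp [← h]
    · have a := add_one_le_exp (log (ψ s / φ s) + D / 2)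
      have p := hψ s
      rw [exp_add, exp_log (by positivity)] at a
      rw [← div_pow, log_pow, ← inv_div (ψ s), log_inv]
      have b : exp (-D / 2) * exp (D / 2) = 1 := by rw [← exp_add]; ring_nf; simp
      have c := mul_le_mul_of_nonneg_left a (by positivity : 0 ≤ exp (-D / 2) * φ s ^ 2)
      have d : exp (-D / 2) * φ s ^ 2 * (ψ s / φ s * exp (D / 2)) = φ s * ψ s := by
        rw [mul_mul_mul_comm _ _ (ψ s / φ s), mul_comm (exp _) (ψ s / φ s)]
        calc _ = (φ s ^ 2 * (ψ s / φ s)) * (exp (-D / 2) * exp (D / 2)) := by ring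
          _ = _ := by rw [b]; field_simp
      push_cast
      linarith
  rw [← mul_sum, sum_sub_distrib, ← sum_mul, ← sum_div, h, ← hD] at this
  linarith

end

variable {L q : ℕ}

lemma spec_max (A : Finset (Site L)) (Ω : Cfg L q → ℂ) (hq : 2 ≤ q) :
    ∃ i, ‖coef A Ω‖ * ‖coef A Ω‖ ≤ spec A Ω i := by
  have : Nonempty (Fin q) := ⟨⟨0, by omega⟩⟩
  obtain ⟨i, hi⟩ := Finite.exists_max (spec A Ω)
  refine ⟨i, ?_⟩
  have h := (isHermitian_mul_conjTranspose_self (coef A Ω)).spectral_theorem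
  have a := l2_opNorm_conjTranspose_mul_self (coef A Ω)ᴴ
  rw [conjTranspose_conjTranspose, l2_opNorm_conjTranspose] at a
  rw [← a, h, Unitary.conjStarAlgAut_apply, CStarRing.norm_mul_mem_unitary _ (Unitary.star_mem
    (Subtype.prop _)), CStarRing.norm_coe_unitary_mul, l2_opNorm_diagonal]
  refine (pi_norm_le_iff_of_nonneg (spec_nonneg A Ω i)).mpr fun j => ?_
  exact (Complex.norm_real _).le.trans ((abs_of_nonneg (spec_nonneg A Ω j)).le.trans (hi j))

theorem overlap (hq : 2 ≤ q) {R : ℕ} {J a : ℝ} {H : Matrix (Cfg L q) (Cfg L q) ℂ}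
    {ψ : Cfg L q → ℝ} (hH : Stoq R J H) (hψ : ∀ s, 0 < ψ s) (h1 : ∑ s, ψ s ^ 2 = 1) (ha : 0 < a)
    (hL : LSI H ψ a) (A : Finset (Site L)) :
    ∃ i, exp (-((bdry A * 2 ^ (2 * (2 * R) + 1) ^ 2 : ℕ) * (2 * J) / a)) ≤
      spec A (fun s => ψ s) i := by
  have : Nonempty (Fin q) := ⟨⟨0, by omega⟩⟩
  obtain ⟨h, hh, hs, rfl⟩ := hH
  obtain ⟨i, hi⟩ := spec_max A (fun s => ψ s) hq
  refine ⟨i, le_trans ?_ hi⟩
  set e := Equiv.piEquivPiSubtypeProd (· ∈ A) fun _ : Site L => Fin q with hee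
  set e' := e.trans (Equiv.prodComm _ _) with he'
  have hu := sum_marg e h1
  have hv := sum_marg e' h1
  set φ : Cfg L q → ℝ := fun s => marg e ψ (e s).1 * marg e' ψ (e s).2 with hφ
  have h2 : ∑ s, φ s ^ 2 = 1 := by
    rw [← e.symm.sum_comp, Fintype.sum_prod_type]
    simp only [hφ, Equiv.apply_symm_apply, mul_pow, ← mul_sum, hv, mul_one, hu]
  have hJ : 0 ≤ J := (norm_nonneg _).trans (hh ∅).2.2
  have key : ∀ X, en (h X) φ - en (h X) ψ ≤
      if (∃ x ∈ X, x ∈ A) ∧ ∃ y ∈ X, y ∉ A then 2 * J else 0 := fun X => by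
    split_ifs with hc
    · have a1 := (abs_le.mp ((bil_le (h X) h2 h2).trans (hh X).2.2)).2
      have a2 := (abs_le.mp ((bil_le (h X) h1 h1).trans (hh X).2.2)).1
      unfold en
      linarith
    · obtain ⟨g, hg⟩ := (hh X).2.1
      have hs := hs X
      rw [acts_decomp A hg] at hs ⊢
      rw [sub_nonpos]
      rcases not_and_or.mp hc with h3 | h3 <;> push Not at h3
      · simp only [unit_eq_one h3, kron_sum'] at hs ⊢
        exact en_right e hs ψ hu
      · simp only [unit_eq_one (p := (· ∉ A)) fun x hx => not_not.mpr (h3 x hx), kron_sum] at hs ⊢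
        exact en_left e hs ψ hv
  have lin : ∀ (S : Finset (Finset (Site L))) (f : Cfg L q → ℝ),
      en (∑ X ∈ S, h X) f = ∑ X ∈ S, en (h X) f := fun S f => by
    simp only [en, Matrix.sum_apply, Complex.re_sum, mul_sum, sum_mul]
    exact (sum_congr rfl fun s _ => sum_comm).trans sum_comm
  have b := hL φ h2
  rw [lin, lin, ← sum_sub_distrib] at b
  replace b := b.trans (sum_le_sum fun X _ => key X)
  rw [← sum_filter, sum_const, nsmul_eq_mul, filter_filter] at b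
  replace b := b.trans (mul_le_mul_of_nonneg_right (Nat.cast_le.mpr (le_trans (card_le_card
    (monotone_filter_right _ fun X _ hX => ⟨hX.1.2, hX.2⟩)) (card_cross A R))) (by positivity))
  rw [← le_div_iff₀' ha] at b
  have c := jensen h2 (fun s => mul_nonneg (sqrt_nonneg _) (sqrt_nonneg _)) hψ
  have d : ∑ s, φ s * ψ s ≤ ‖coef A fun s => (ψ s : ℂ)‖ := by
    refine le_trans (le_of_eq ?_) ((le_abs_self _).trans (bil_le _ hu hv))
    rw [← e.symm.sum_comp, Fintype.sum_prod_type]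
    refine sum_congr rfl fun x _ => sum_congr rfl fun y _ => ?_
    simp only [hφ, Equiv.apply_symm_apply, coef, of_apply, Complex.ofReal_re]
    rw [mul_right_comm]
    rfl
  refine le_trans ?_ (mul_self_le_mul_self (exp_pos _).le (c.trans d))
  rw [← exp_add, exp_le_exp]
  linarith

theorem stoq_main (q R : ℕ) (hq : 2 ≤ q) (J Δ a : ℝ) (hΔ : 0 < Δ) (ha : 0 < a) : ∃ C : ℝ,
    ∀ (L : ℕ) (H : Matrix (Cfg L q) (Cfg L q) ℂ) (ψ : Cfg L q → ℝ), Stoq R J H → (∀ s, 0 < ψ s) →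
    Gapped H (fun s => ψ s) Δ → LSI H ψ a → ∀ A : Finset (Site L),
      ent A (fun s => ψ s) ≤ C * (1 + bdry A : ℝ) ^ (3 / 2 : ℝ) := by
  obtain ⟨c, c0, hc⟩ := main q R hq J Δ hΔ
  set K : ℝ := (2 ^ (2 * (2 * R) + 1) ^ 2 : ℕ) * (2 * J) / a with hK
  refine ⟨2 * (1 + |K|) / c, fun L H ψ hH hψ hG hL A => ?_⟩
  have h1 : ∑ s, ψ s ^ 2 = 1 := by
    have := hG.1
    simp only [dotProduct, Pi.star_apply, Complex.star_def, Complex.conj_ofReal, ← sq] at this
    exact_mod_cast this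
  obtain ⟨i, hi⟩ := overlap hq hH hψ h1 ha hL A
  obtain ⟨h, hh, -, hH⟩ := hH
  have a1 := (hc L H _ ⟨h, hh, hH⟩ hG A).2.2.2 {i} (by simpa using (exp_pos _).trans_le hi)
  have a2 := log_le_log (exp_pos _) hi
  rw [log_exp, Nat.cast_mul, mul_assoc, mul_div_assoc, ← hK] at a2
  simp only [card_singleton, Nat.cast_one, log_one, sub_zero, sum_singleton] at a1
  have n0 : (0 : ℝ) ≤ bdry A := Nat.cast_nonneg _
  rw [div_mul_eq_mul_div, le_div_iff₀' c0, show (3 / 2 : ℝ) = 1 / 2 + 1 by norm_num,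
    rpow_add (by positivity), rpow_one, ← sqrt_eq_rpow]
  refine a1.trans ?_
  have a3 : 1 - log (spec A (fun s => ψ s) i) ≤ (1 + |K|) * (1 + bdry A) := by
    nlinarith [mul_le_mul_of_nonneg_left (le_abs_self K) n0, abs_nonneg K]
  nlinarith [mul_le_mul_of_nonneg_left a3 (sqrt_nonneg (1 + bdry A : ℝ))]

end Vale.Agent.P356
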