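import Vale.Agent.P356.Stoq

/-! Superoperator bounds. -/

set_option linter.unusedSectionVars false

namespace Vale.Agent.P356

open Matrix Finset Real
open scoped Matrix.Norms.L2Operator ComplexOrder

variable {α β γ : Type} [Fintype α] [Fintype β] [Fintype γ] [DecidableEq α] [DecidableEq β]
  [DecidableEq γ]

/-- Euclidean norm. -/
noncomputable def nrm (x : α → ℂ) : ℝ := ‖(WithLp.toLp 2 x : EuclideanSpace ℂ α)‖

lemma nrm_nonneg (x : α → ℂ) : 0 ≤ nrm x := norm_nonneg _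

lemma nrm_sq (x : α → ℂ) : nrm x ^ 2 = ∑ i, ‖x i‖ ^ 2 := EuclideanSpace.norm_sq_eq _

lemma nrm_mulVec (A : Matrix α β ℂ) (x : β → ℂ) : nrm (A *ᵥ x) ≤ ‖A‖ * nrm x :=
  l2_opNorm_mulVec A (WithLp.toLp 2 x)

lemma norm_le_of_nrm {A : Matrix α β ℂ} {c : ℝ} (hc : 0 ≤ c)
    (h : ∀ x, nrm (A *ᵥ x) ≤ c * nrm x) : ‖A‖ ≤ c := by
  rw [l2_opNorm_def]
  exact ContinuousLinearMap.opNorm_le_bound _ hc fun x => h x.ofLp

lemma nrm_star (x : α → ℂ) : nrm (star x) = nrm x := by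
  rw [← sq_eq_sq₀ (nrm_nonneg _) (nrm_nonneg _), nrm_sq, nrm_sq]
  simp

lemma norm_transpose_le (A : Matrix α β ℂ) : ‖Aᵀ‖ ≤ ‖A‖ := by
  refine norm_le_of_nrm (norm_nonneg _) fun x => ?_
  have := nrm_mulVec Aᴴ (star x)
  rwa [l2_opNorm_conjTranspose, nrm_star, ← star_vecMul, nrm_star, ← mulVec_transpose] at this

lemma nrm_tens (e : γ ≃ α × β) (u : α → ℂ) (v : β → ℂ) :
    nrm (fun s => u (e s).1 * v (e s).2) = nrm u * nrm v := by
  rw [← sq_eq_sq₀ (nrm_nonneg _) (mul_nonneg (nrm_nonneg _) (nrm_nonneg _)), mul_pow, nrm_sq,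
    nrm_sq, nrm_sq, ← e.symm.sum_comp, Fintype.sum_prod_type, sum_mul_sum]
  simp [mul_pow]

lemma kron_tens (e : γ ≃ α × β) (P : Matrix α α ℂ) (Q : Matrix β β ℂ) (u : α → ℂ) (v : β → ℂ) :
    kron e P Q *ᵥ (fun s => u (e s).1 * v (e s).2) =
      fun s => (P *ᵥ u) (e s).1 * (Q *ᵥ v) (e s).2 := by
  ext s
  simp only [mulVec, dotProduct, kron, of_apply]
  rw [← e.symm.sum_comp, Fintype.sum_prod_type, sum_mul_sum]
  refine sum_congr rfl fun a _ => sum_congr rfl fun b _ => ?_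
  rw [e.apply_symm_apply]
  ring

lemma le_norm_kron (e : γ ≃ α × β) (P : Matrix α α ℂ) (Q : Matrix β β ℂ) :
    ‖P‖ * ‖Q‖ ≤ ‖kron e P Q‖ := by
  have h : ∀ u v, nrm (P *ᵥ u) * nrm (Q *ᵥ v) ≤ ‖kron e P Q‖ * (nrm u * nrm v) := fun u v => by
    rw [← nrm_tens e, ← nrm_tens e, ← kron_tens]
    exact nrm_mulVec _ _
  rcases (norm_nonneg Q).eq_or_lt with hQ | hQ
  · rw [← hQ, mul_zero]
    exact norm_nonneg _
  rw [← le_div_iff₀ hQ]
  refine norm_le_of_nrm (by positivity) fun u => ?_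
  rcases (nrm_nonneg (P *ᵥ u)).eq_or_lt with hu | hu
  · rw [← hu]
    exact mul_nonneg (by positivity) (nrm_nonneg _)
  rw [div_mul_eq_mul_div, le_div_iff₀ hQ, ← le_div_iff₀' hu]
  refine norm_le_of_nrm (div_nonneg (mul_nonneg (norm_nonneg _) (nrm_nonneg _)) hu.le) fun v => ?_
  rw [div_mul_eq_mul_div, le_div_iff₀' hu, mul_assoc]
  exact h u v

/-- Action on matrices. -/
def sup (e : γ ≃ α × β) (K : Matrix γ γ ℂ) (M : Matrix α β ℂ) : Matrix α β ℂ :=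
  of fun a b => ((fun s => M (e s).1 (e s).2) ᵥ* K) (e.symm (a, b))

/-- Operator norm bound for the action on matrices. -/
def SB (e : γ ≃ α × β) (κ : ℝ) (K : Matrix γ γ ℂ) : Prop := ∀ M, ‖sup e K M‖ ≤ κ * ‖M‖

variable {e : γ ≃ α × β}

lemma SB.mono {κ κ' : ℝ} {K : Matrix γ γ ℂ} (h : SB e κ K) (h' : κ ≤ κ') : SB e κ' K :=
  fun M => (h M).trans (mul_le_mul_of_nonneg_right h' (norm_nonneg _))

lemma SB.add {κ κ' : ℝ} {K K' : Matrix γ γ ℂ} (h : SB e κ K) (h' : SB e κ' K') :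
    SB e (κ + κ') (K + K') := fun M => by
  have : sup e (K + K') M = sup e K M + sup e K' M := by
    ext a b
    simp [sup, vecMul_add]
  rw [this, add_mul]
  exact (norm_add_le _ _).trans (add_le_add (h M) (h' M))

lemma SB.smul {κ : ℝ} {K : Matrix γ γ ℂ} (h : SB e κ K) (z : ℂ) : SB e (‖z‖ * κ) (z • K) :=
  fun M => by
  have : sup e (z • K) M = z • sup e K M := by
    ext a b
    simp [sup, vecMul_smul]
  rw [this, norm_smul, mul_assoc]
  exact mul_le_mul_of_nonneg_left (h M) (norm_nonneg _)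

lemma SB.zero : SB e 0 0 := fun M => by
  have : sup e 0 M = 0 := by
    ext a b
    simp [sup]
  simp [this]

lemma SB.sum {κ : Type} (s : Finset κ) {N : κ → ℝ} {V : κ → Matrix γ γ ℂ}
    (h : ∀ k ∈ s, SB e (N k) (V k)) : SB e (∑ k ∈ s, N k) (∑ k ∈ s, V k) := by
  classical
  induction s using Finset.induction_on with
  | empty => simpa using SB.zero
  | insert a s ha ih =>
    rw [sum_insert ha, sum_insert ha]
    exact (h a (mem_insert_self _ _)).add (ih fun k hk => h k (mem_insert_of_mem hk))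

lemma sb_kron (P : Matrix α α ℂ) (Q : Matrix β β ℂ) : SB e (‖P‖ * ‖Q‖) (kron e P Q) := fun M => by
  have : sup e (kron e P Q) M = Pᵀ * M * Q := by
    ext a b
    simp only [sup, vecMul, dotProduct, of_apply, mul_apply, transpose_apply, sum_mul]
    rw [← e.symm.sum_comp, Fintype.sum_prod_type, sum_comm]
    refine sum_congr rfl fun y _ => sum_congr rfl fun x _ => ?_
    rw [kron_apply, e.apply_symm_apply]
    ring
  rw [this, mul_right_comm]
  exact (l2_opNorm_mul _ _).trans (mul_le_mul_of_nonneg_right ((l2_opNorm_mul _ _).trans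
    (mul_le_mul_of_nonneg_right (norm_transpose_le _) (norm_nonneg _))) (norm_nonneg _))

lemma norm_step {Y : Matrix γ γ ℂ} (hY : Y.PosSemidef) {ε : ℝ} (hε : 0 ≤ ε) :
    ‖1 - (ε : ℂ) • Y‖ ≤ 1 + ε ^ 2 * ‖Y‖ ^ 2 := by
  refine norm_le_of_nrm (by positivity) fun x => ?_
  have h1 : ∀ z : γ → ℂ, nrm z ^ 2 = (star z ⬝ᵥ z).re := fun z => by
    simp [nrm_sq, dotProduct, Complex.sq_norm, Complex.normSq_apply]
  have h2 := (Complex.le_def.mp (hY.dotProduct_mulVec_nonneg x)).1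
  have h3 : (star (Y *ᵥ x) ⬝ᵥ x).re = (star x ⬝ᵥ Y *ᵥ x).re := by
    rw [star_mulVec, hY.1.eq, dotProduct_mulVec]
  have h4 := pow_le_pow_left₀ (nrm_nonneg _) (nrm_mulVec Y x) 2
  have h5 : nrm ((1 - (ε : ℂ) • Y) *ᵥ x) ^ 2 =
      nrm x ^ 2 - 2 * ε * (star x ⬝ᵥ Y *ᵥ x).re + ε ^ 2 * nrm (Y *ᵥ x) ^ 2 := by
    simp only [h1, sub_mulVec, one_mulVec, smul_mulVec, star_sub, star_smul, sub_dotProduct,
      dotProduct_sub, smul_dotProduct, dotProduct_smul, Complex.star_def, Complex.conj_ofReal,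
      smul_eq_mul, Complex.sub_re, Complex.re_ofReal_mul, h3]
    ring
  refine le_of_sq_le_sq ?_ (mul_nonneg (by positivity) (nrm_nonneg _))
  rw [Complex.zero_re] at h2
  rw [h5]
  have h6 := mul_le_mul_of_nonneg_left h4 (sq_nonneg ε)
  nlinarith [mul_nonneg hε h2, sq_nonneg (ε ^ 2 * ‖Y‖ ^ 2 * nrm x),
    sq_nonneg (ε * ‖Y‖ * nrm x)]

lemma sb_step {X : Matrix α α ℂ} {Z : Matrix β β ℂ} {V : Matrix γ γ ℂ} {N : ℝ}
    (hY : (kron e X 1 + kron e 1 Z + V).PosSemidef) (hV : SB e N V) (hN : ‖V‖ ≤ N) :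
    ∃ B, 0 ≤ B ∧ ∀ ε : ℝ, 0 ≤ ε →
      SB e (1 + 2 * ε * N + ε ^ 2 * B) (1 - (ε : ℂ) • (kron e X 1 + kron e 1 Z + V)) := by
  set Y := kron e X 1 + kron e 1 Z + V with hY0
  refine ⟨‖Y‖ ^ 2 + ‖kron e X Z‖ + ‖X‖ * ‖Z‖, by positivity, fun ε hε => ?_⟩
  have h : 1 - (ε : ℂ) • Y = kron e (1 - (ε : ℂ) • X) (1 - (ε : ℂ) • Z) +
      (-(ε : ℂ) ^ 2) • kron e X Z + (-(ε : ℂ)) • V := by
    rw [← kron_one (e := e), hY0]
    ext s t
    simp only [kron, of_apply, Matrix.sub_apply, Matrix.add_apply, Matrix.smul_apply, smul_eq_mul]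
    ring
  have h2 : kron e (1 - (ε : ℂ) • X) (1 - (ε : ℂ) • Z) =
      (1 - (ε : ℂ) • Y) + ((ε : ℂ) ^ 2) • kron e X Z + (ε : ℂ) • V := by
    rw [h]
    module
  have h3 := le_norm_kron e (1 - (ε : ℂ) • X) (1 - (ε : ℂ) • Z)
  rw [h2] at h3
  have h4 := h3.trans (norm_add₃_le)
  have h5 := norm_step hY hε
  rw [h]
  refine (((sb_kron _ _).add ((sb_kron _ _).smul _)).add (hV.smul _)).mono ?_
  simp only [norm_smul, norm_neg, norm_pow, Complex.norm_real, Real.norm_eq_abs,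
    abs_of_nonneg hε] at h4 ⊢
  nlinarith [mul_le_mul_of_nonneg_left hN hε]

end Vale.Agent.P356
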